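import Vale.Agent.P309.Rep

namespace Vale.Agent.P309
open MeasureTheory ProbabilityTheory Real Set Metric Filter
open scoped ENNReal RealInnerProductSpace Topology

lemma cs {X : Type*} [MeasurableSpace X] (ν : Measure X) {f g : X → ℝ≥0∞} (hf : Measurable f)
    (hg : Measurable g) {x y : ℝ≥0∞} (h1 : ∫⁻ a, f a ^ 2 ∂ν ≤ x ^ 2)
    (h2 : ∫⁻ a, g a ^ 2 ∂ν ≤ y ^ 2) : ∫⁻ a, f a * g a ∂ν ≤ x * y := by
  have h := ENNReal.lintegral_mul_le_Lp_mul_Lq ν Real.HolderConjugate.two_two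
    hf.aemeasurable hg.aemeasurable
  simp only [ENNReal.rpow_two] at h
  refine h.trans ?_
  have h3 : ∀ z : ℝ≥0∞, (z ^ 2) ^ (1 / 2 : ℝ) = z := fun z => by
    rw [← ENNReal.rpow_two, ← ENNReal.rpow_mul]; norm_num
  rw [← h3 x, ← h3 y]
  gcongr

/-- Morrey type bound for the square of `V` -/
def Mor {d : ℕ} (σ : Measure (Euc d)) (β : ℕ) (K : ℝ) (V : Euc d → ℝ≥0∞) : Prop :=
  ∀ u ρ, 0 < ρ → ∫⁻ s in closedBall u ρ, V s ^ 2 ∂σ ≤ ENNReal.ofReal (K * ρ ^ β) ^ 2

lemma Mor.fro {d β : ℕ} {σ : Measure (Euc d)} {K : ℝ} (hK : 0 ≤ K) {V : Euc d → ℝ≥0∞}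
    (h : Mor σ β K V) :
    Fro (σ.withDensity fun s => V s ^ 2) (ENNReal.ofReal (K ^ 2)) (2 * β) := fun u ρ hρ => by
  rw [withDensity_apply _ measurableSet_closedBall]
  refine (h u ρ hρ).trans (le_of_eq ?_)
  rw [← ENNReal.ofReal_pow (by positivity), ← ENNReal.ofReal_mul (by positivity)]
  congr 1; ring

lemma Mor.mono {d β : ℕ} {σ : Measure (Euc d)} {K K' : ℝ} (hK : K ≤ K') {V : Euc d → ℝ≥0∞}
    (h : Mor σ β K V) : Mor σ β K' V := fun u ρ hρ => by
  refine (h u ρ hρ).trans ?_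
  gcongr

lemma measurable_emb' {d k : ℕ} (s : Euc d) : Measurable fun X : Fin k → Euc d => emb s X := by
  unfold emb; fun_prop

lemma two_mul_pow_le {d β : ℕ} (hd : 0 < d) (hβ : β ≤ d) : 2 * 2 ^ (2 * β) ≤ exp (3 * d) := by
  have h1 : (8 : ℝ) ≤ exp 3 := by
    have : exp 3 = exp 1 ^ 3 := by rw [← Real.exp_nat_mul]; norm_num
    rw [this]
    have := Real.exp_one_gt_d9
    calc (8 : ℝ) = 2 ^ 3 := by norm_num
      _ ≤ _ := by gcongr; linarith
  have h2 : exp (3 * d) = exp 3 ^ d := by rw [← Real.exp_nat_mul]; ring_nf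
  have h3 : (2 : ℝ) ≤ 2 ^ d := by
    calc (2 : ℝ) = 2 ^ 1 := by norm_num
      _ ≤ _ := pow_le_pow_right₀ (by norm_num) hd
  calc (2 : ℝ) * 2 ^ (2 * β) ≤ 2 ^ d * 2 ^ (2 * d) := by gcongr; norm_num
    _ = 8 ^ d := by rw [← pow_add, show d + 2 * d = 3 * d by ring, pow_mul]; norm_num
    _ ≤ _ := by rw [h2]; gcongr

lemma one_piece {d k m β : ℕ} (hd : 0 < d) (hβ : 2 * k + m + 1 ≤ 2 * β) (hβd : β ≤ d)
    (σ : Measure (Euc d)) [SFinite σ] {K L ν r : ℝ} (hK : 0 < K) (hL : 0 < L) (hν : 0 < ν)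
    (hr : 0 < r) (z : Euc d) {U V : Euc d → ℝ≥0∞} (hU : Measurable U) (hV : Measurable V)
    (hM : Mor σ β K U) (hVn : ∫⁻ s in closedBall z r, V s ^ 2 ∂σ ≤ ENNReal.ofReal ν ^ 2)
    {f : Zs d k → ℝ≥0∞} (hf : Measurable f) (hf1 : ∀ Z, f Z ≤ 1) :
    ∫⁻ s in closedBall z r, V s * U s * ∫⁻ X, f (emb s X) ∂(Gam d k) ∂σ
      ≤ ENNReal.ofReal (L * (ν * (K * r ^ β) * (exp (3 * d) / r ^ k))) * ∫⁻ Z, f Z ∂(Lam d k)
        + ENNReal.ofReal (ν * (K * r ^ β) / L ^ (m + 1)) := by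
  set μ := (σ.restrict (closedBall z r)).withDensity (fun s => V s * U s) with hμ
  have hVU : Measurable fun s => V s * U s := hV.mul hU
  have hint : ∀ φ : Euc d → ℝ≥0∞, Measurable φ →
      ∫⁻ s, φ s ∂μ = ∫⁻ s in closedBall z r, V s * U s * φ s ∂σ := fun φ hφ =>
    lintegral_withDensity_eq_lintegral_mul _ hVU hφ
  set a := ν * (K * r ^ β) with ha
  set D := a * (exp (3 * d) / r ^ k) with hD
  have ha0 : 0 < a := by positivity
  have hD0 : 0 < D := by positivity
  have h1 : μ univ ≤ ENNReal.ofReal a := by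
    rw [← lintegral_one, hint _ measurable_const, ha, ENNReal.ofReal_mul hν.le]
    simp only [mul_one]
    exact cs _ hV hU hVn (hM z r hr)
  have h2 : ∀ᵐ s₁ ∂μ, ∀ W : Submodule ℝ (Euc d), Module.finrank ℝ W ≤ m →
      ∫⁻ s, (ENNReal.ofReal ‖Wᗮ.starProjection (s - s₁)‖)⁻¹ ^ k ∂μ ≤ ENNReal.ofReal D := by
    refine (withDensity_absolutelyContinuous _ _).ae_le
      ((ae_restrict_mem measurableSet_closedBall).mono fun s₁ hs₁ W hW => ?_)
    have hφ : Measurable fun s : Euc d =>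
        (ENNReal.ofReal ‖Wᗮ.starProjection (s - s₁)‖)⁻¹ ^ k := by fun_prop
    rw [hint _ hφ]
    simp only [mul_assoc]
    have h3 := sing_int hd (hM.fro hK.le) W hW hβ hr hs₁
    rw [setLIntegral_withDensity_eq_setLIntegral_mul _ (by fun_prop) (by fun_prop)
      measurableSet_closedBall] at h3
    refine (cs (y := ENNReal.ofReal (K * r ^ β * (exp (3 * d) / r ^ k))) _ hV (hU.mul hφ) hVn
      (le_trans (le_of_eq ?_) (h3.trans ?_))).trans (le_of_eq ?_)
    · refine lintegral_congr fun s => ?_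
      simp only [Pi.mul_apply]; ring
    · rw [← ENNReal.ofReal_mul (by positivity), ← ENNReal.ofReal_pow (by positivity)]
      refine ENNReal.ofReal_le_ofReal ?_
      have h4 := two_mul_pow_le hd hβd
      calc _ = K ^ 2 * r ^ (2 * β) * exp (3 * d) / r ^ (2 * k) * (2 * 2 ^ (2 * β)) := by
            rw [mul_pow]; ring
        _ ≤ K ^ 2 * r ^ (2 * β) * exp (3 * d) / r ^ (2 * k) * exp (3 * d) := by gcongr
        _ = _ := by ring
    · rw [← ENNReal.ofReal_mul hν.le, hD, ha]; congr 1; ring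
  have hB : ∀ n, ∫⁻ Z, den (box n) μ Z ^ (m + 1 + 1) ∂(Lam d k)
      ≤ ENNReal.ofReal D ^ (m + 1) * ENNReal.ofReal a := fun n =>
    (replica (measurable_box n) (lintegral_box n).le μ h2).trans (mul_le_mul_right h1 _)
  have h5 := test_fun μ (t := ENNReal.ofReal (L * D)) (ENNReal.ofReal_pos.2 (by positivity)).ne'
    ENNReal.ofReal_ne_top hB hf hf1
  have hφ : Measurable fun s : Euc d => ∫⁻ X, f (emb s X) ∂(Gam d k) :=
    (hf.comp measurable_emb).lintegral_prod_right'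
  rw [hint _ hφ] at h5
  refine h5.trans (le_of_eq ?_)
  congr 1
  rw [← ENNReal.ofReal_pow hD0.le, ← ENNReal.ofReal_pow (by positivity),
    ← ENNReal.ofReal_inv_of_pos (by positivity), ← ENNReal.ofReal_mul (by positivity),
    ← ENNReal.ofReal_mul (by positivity)]
  congr 1
  rw [mul_pow L D]; field_simp

lemma block {d k m β : ℕ} (hd : 2 ≤ d) (hβ : 2 * k + m + 1 ≤ 2 * β) (hβd : β ≤ d)
    (σ : Measure (Euc d)) [IsFiniteMeasure σ] {ι : Type*} [Fintype ι] {K L A : ℝ} (hK : 0 < K)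
    (hL : 0 < L) (hN : (Fintype.card ι : ℝ) ≤ L ^ (m + 1))
    (hA : L * exp (4 * d) * 6 ^ k + 1 ≤ A) {f : ι → Zs d k → ℝ≥0∞} (hf : ∀ a, Measurable (f a))
    (hf1 : ∀ Z, ∑ a, f a Z ≤ 1) {U : ι → Euc d → ℝ≥0∞} (hU : ∀ a, Measurable (U a))
    (hM : ∀ a, Mor σ β K (U a)) {V : Euc d → ℝ≥0∞} (hV : Measurable V) (hV1 : ∀ s, V s ≤ 1)
    (hVle : ∀ s, V s ≤ ∫⁻ X, ∑ a, f a (emb s X) * U a s ∂(Gam d k)) :
    Mor σ β (A * K) V := by
  intro z r hr
  have hA0 : 0 < A := lt_of_lt_of_le (by positivity) hA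
  set P := ∫⁻ s in closedBall z r, V s ^ 2 ∂σ with hP
  have hPt : P ≠ ⊤ := by
    refine ne_top_of_le_ne_top (measure_ne_top σ (closedBall z r)) ?_
    rw [← setLIntegral_one]
    exact lintegral_mono fun s => pow_le_one' (hV1 s) 2
  by_cases hP0 : P = 0
  · rw [hP0]; exact zero_le
  set ν := sqrt P.toReal with hν
  have hν0 : 0 < ν := sqrt_pos.2 (ENNReal.toReal_pos hP0 hPt)
  have hPν : P = ENNReal.ofReal ν ^ 2 := by
    rw [← ENNReal.ofReal_pow hν0.le, hν, sq_sqrt ENNReal.toReal_nonneg, ENNReal.ofReal_toReal hPt]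
  have hOm : MeasurableSet (Om k z r) := (isClosed_Om z r).measurableSet
  set g : ι → Zs d k → ℝ≥0∞ := fun a => (Om k z r).indicator (f a) with hg
  have hgm : ∀ a, Measurable (g a) := fun a => (hf a).indicator hOm
  have hg1 : ∀ a Z, g a Z ≤ 1 := fun a Z =>
    (indicator_le_self _ _ Z).trans ((Finset.single_le_sum (f := fun a => f a Z)
      (fun _ _ => zero_le) (Finset.mem_univ a)).trans (hf1 Z))
  have hφ : ∀ a, Measurable fun s : Euc d => ∫⁻ X, g a (emb s X) ∂(Gam d k) := fun a =>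
    ((hgm a).comp measurable_emb).lintegral_prod_right'
  set a₀ := ν * (K * r ^ β) with ha
  have ha0 : 0 < a₀ := by positivity
  have hsum : ∑ a, ∫⁻ Z, g a Z ∂(Lam d k) ≤ ENNReal.ofReal (exp d * (6 * r) ^ k) := by
    rw [← lintegral_finsetSum _ fun a _ => hgm a]
    refine le_trans ?_ (Lam_Om hd z hr)
    rw [← lintegral_indicator_one hOm]
    refine lintegral_mono fun Z => ?_
    by_cases hZ : Z ∈ Om k z r
    · simpa [hg, indicator_of_mem hZ] using hf1 Z
    · simp [hg, indicator_of_notMem hZ]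
  have key : P ≤ ENNReal.ofReal (a₀ * A) := by
    calc P ≤ ∫⁻ s in closedBall z r, ∑ a, V s * U a s * ∫⁻ X, g a (emb s X) ∂(Gam d k) ∂σ := by
          refine setLIntegral_mono' measurableSet_closedBall fun s hs => ?_
          have hm : ∀ a, Measurable fun X : Fin k → Euc d => g a (emb s X) := fun a =>
            (hgm a).comp (measurable_emb' s)
          simp only [mul_assoc, ← Finset.mul_sum]
          rw [sq]
          refine mul_le_mul_right ((hVle s).trans (le_of_eq ?_)) _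
          simp only [fun a => (lintegral_const_mul (μ := Gam d k) (U a s) (hm a)).symm]
          rw [← lintegral_finsetSum _ fun a _ => (hm a).const_mul _]
          refine lintegral_congr fun X => Finset.sum_congr rfl fun a _ => ?_
          rw [hg]; simp only
          rw [indicator_of_mem (emb_mem_Om hs X), mul_comm]
      _ = ∑ a, ∫⁻ s in closedBall z r, V s * U a s * ∫⁻ X, g a (emb s X) ∂(Gam d k) ∂σ :=
          lintegral_finsetSum _ fun a _ => (hV.mul (hU a)).mul (hφ a)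
      _ ≤ ∑ a, (ENNReal.ofReal (L * (a₀ * (exp (3 * d) / r ^ k))) * ∫⁻ Z, g a Z ∂(Lam d k)
            + ENNReal.ofReal (a₀ / L ^ (m + 1))) :=
          Finset.sum_le_sum fun a _ => one_piece (by omega) hβ hβd σ hK hL hν0 hr z (hU a) hV
            (hM a) hPν.le (hgm a) (hg1 a)
      _ ≤ ENNReal.ofReal (L * (a₀ * (exp (3 * d) / r ^ k)))
            * ENNReal.ofReal (exp d * (6 * r) ^ k) + ENNReal.ofReal a₀ := by
          rw [Finset.sum_add_distrib, ← Finset.mul_sum]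
          gcongr
          rw [Finset.sum_const, Finset.card_univ, nsmul_eq_mul, ← ENNReal.ofReal_natCast,
            ← ENNReal.ofReal_mul (by positivity)]
          refine ENNReal.ofReal_le_ofReal ?_
          calc _ ≤ L ^ (m + 1) * (a₀ / L ^ (m + 1)) := by gcongr
            _ = _ := by field_simp
      _ ≤ _ := by
          rw [← ENNReal.ofReal_mul (by positivity),
            ← ENNReal.ofReal_add (by positivity) (by positivity)]
          refine ENNReal.ofReal_le_ofReal ?_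
          have h4 : exp (4 * d) = exp (3 * d) * exp d := by
            rw [← Real.exp_add]; congr 1; ring
          calc _ = a₀ * (L * exp (4 * d) * 6 ^ k + 1) := by
                rw [h4, mul_pow]; field_simp
            _ ≤ _ := by gcongr
  rw [hPν, ← ENNReal.ofReal_pow hν0.le, ENNReal.ofReal_le_ofReal_iff (by positivity)] at key
  rw [hPν]
  gcongr
  have : ν * ν ≤ ν * (A * K * r ^ β) := by
    calc ν * ν = ν ^ 2 := by ring
      _ ≤ a₀ * A := key
      _ = _ := by rw [ha]; ring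
  exact le_of_mul_le_mul_left this hν0

end Vale.Agent.P309
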