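import Vale.Agent.P309.Block

namespace Vale.Agent.P309
open MeasureTheory ProbabilityTheory Real Set Metric Filter
open scoped ENNReal RealInnerProductSpace Topology Pointwise

/-- the uniform measure on the sphere, seen in the ambient space -/
noncomputable def sig (d : ℕ) : Measure (Euc d) := (unif d).map Subtype.val

lemma vol_ball_ne (d : ℕ) : (volume (ball (0 : Euc d) 1)) ≠ 0 ∧ volume (ball (0 : Euc d) 1) ≠ ⊤ :=
  ⟨(measure_ball_pos _ _ one_pos).ne', measure_ball_lt_top.ne⟩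

lemma unif_prob {d : ℕ} (hd : 0 < d) : IsProbabilityMeasure (unif d) := by
  constructor
  rw [unif, Measure.smul_apply, smul_eq_mul]
  refine ENNReal.inv_mul_cancel ?_ (measure_ne_top _ _)
  rw [Measure.toSphere_apply_univ]
  exact mul_ne_zero (by simp [hd.ne']) (vol_ball_ne d).1

lemma sig_prob {d : ℕ} (hd : 0 < d) : IsProbabilityMeasure (sig d) := by
  have := unif_prob hd
  exact Measure.isProbabilityMeasure_map measurable_subtype_coe.aemeasurable

lemma sig_ae {d : ℕ} : ∀ᵐ s ∂(sig d), ‖s‖ = 1 := by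
  rw [sig, ae_map_iff measurable_subtype_coe.aemeasurable
    (measurableSet_eq_fun (by fun_prop) measurable_const)]
  exact Eventually.of_forall fun s => by simpa using s.2

lemma cap {d : ℕ} (hd : 0 < d) (u : Euc d) {ρ : ℝ} (hρ : 0 < ρ) :
    sig d (closedBall u ρ) ≤ ENNReal.ofReal (exp (3 * d) * ρ ^ (d - 1)) := by
  have hd' : (0 : ℝ) < d := by exact_mod_cast hd
  have hs : 0 < sqrt (d : ℝ) := sqrt_pos.2 hd'
  rw [sig, Measure.map_apply measurable_subtype_coe measurableSet_closedBall]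
  set A : Set (Sph d) := Subtype.val ⁻¹' closedBall u ρ with hA
  have hAm : MeasurableSet A := measurableSet_closedBall.preimage measurable_subtype_coe
  rcases A.eq_empty_or_nonempty with h | ⟨s₀, hs₀⟩
  · rw [h, measure_empty]; exact zero_le
  have hf : Module.finrank ℝ (Euc d) = d := by simp
  have hn : ‖(s₀ : Euc d)‖ = 1 := by simpa using s₀.2
  have h0 : (s₀ : Euc d) ≠ 0 := fun h => by simp [h] at hn
  set W := Submodule.span ℝ {(s₀ : Euc d)} with hW
  have hW1 : Module.finrank ℝ W = 1 := finrank_span_singleton h0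
  have h1 := vol_tube W 0 (a := 1) (b := 2 * ρ) (D := d) one_pos (by positivity) hd'
  have h2 : Ioo (0 : ℝ) 1 • (Subtype.val '' A) ⊆
      {x : Euc d | ‖W.starProjection (x - 0)‖ ≤ 1 ∧ ‖Wᗮ.starProjection (x - 0)‖ ≤ 2 * ρ} := by
    rintro _ ⟨t, ht, _, ⟨s, hsA, rfl⟩, rfl⟩
    have hs1 : ‖(s : Euc d)‖ = 1 := by simpa using s.2
    simp only [sub_zero, mem_ofPred_eq]
    constructor
    · refine (W.norm_starProjection_apply_le _).trans ?_
      rw [norm_smul, hs1, Real.norm_eq_abs, abs_of_pos ht.1]; linarith [ht.2]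
    · have h3 : Wᗮ.starProjection (s₀ : Euc d) = 0 :=
        Submodule.starProjection_orthogonal_apply_eq_zero (Submodule.mem_span_singleton_self _)
      have h4 : Wᗮ.starProjection (s : Euc d) = Wᗮ.starProjection ((s : Euc d) - s₀) := by
        rw [map_sub, h3, sub_zero]
      have h5 : ‖(s : Euc d) - s₀‖ ≤ 2 * ρ := by
        rw [← dist_eq_norm]
        have := dist_triangle_right (s : Euc d) s₀ u
        have h6 : dist (s : Euc d) u ≤ ρ := hsA
        have h7 : dist (s₀ : Euc d) u ≤ ρ := hs₀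
        linarith
      have h8 := (Wᗮ.norm_starProjection_apply_le _).trans h5
      rw [map_smul, norm_smul, h4, Real.norm_eq_abs, abs_of_pos ht.1]
      exact (mul_le_of_le_one_left (norm_nonneg _) ht.2.le).trans h8
  have h3 := vol_ball_ge hd (0 : Euc d) one_pos
  have : Nontrivial (Euc d) := ⟨⟨_, _, h0⟩⟩
  rw [Measure.addHaar_closedBall_eq_addHaar_ball] at h3
  rw [unif, Measure.smul_apply, smul_eq_mul, Measure.toSphere_apply_univ,
    Measure.toSphere_apply' _ hAm, hf]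
  have hdn : (d : ℝ≥0∞) ≠ 0 := by simp [hd.ne']
  rw [ENNReal.mul_inv (Or.inl hdn) (Or.inl (ENNReal.natCast_ne_top d)), mul_mul_mul_comm,
    ENNReal.inv_mul_cancel hdn (ENNReal.natCast_ne_top d), one_mul,
    ENNReal.inv_mul_le_iff (vol_ball_ne d).1 (vol_ball_ne d).2]
  refine (measure_mono h2).trans (h1.trans (le_trans ?_ (mul_le_mul_left h3 _)))
  rw [← ENNReal.ofReal_mul (by positivity), hf, hW1]
  refine ENNReal.ofReal_le_ofReal ?_
  have h4 : sqrt (π / d) ≤ exp 1 / sqrt d := by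
    rw [sqrt_div pi_pos.le]
    gcongr
    refine sqrt_le_iff.2 ⟨(exp_pos _).le, ?_⟩
    nlinarith [pi_lt_four, Real.exp_one_gt_d9]
  have h5 : exp (3 * d) = exp (2 * d) * exp 1 ^ d := by
    rw [← Real.exp_nat_mul, ← Real.exp_add]; congr 1; ring
  have h6 : (2 : ℝ) ^ (d - 1) ≤ 2 ^ d := pow_le_pow_right₀ (by norm_num) (Nat.sub_le _ _)
  rw [h5, one_pow, one_mul, mul_pow, mul_one]
  calc _ ≤ exp (2 * d) * (exp 1 / sqrt d) ^ d * (2 ^ d * ρ ^ (d - 1)) := by gcongr
    _ = _ := by rw [div_pow, div_pow]; ring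

lemma dist_le_of_arccos {d : ℕ} {u s : Euc d} (hu : ‖u‖ = 1) (hs : ‖s‖ = 1) {ε : ℝ}
    (h : arccos ⟪u, s⟫ ≤ ε) : dist s u ≤ ε := by
  have h1 : |⟪u, s⟫| ≤ 1 := by simpa [hu, hs] using abs_real_inner_le_norm u s
  have h2 := cos_arccos (abs_le.1 h1).1 (abs_le.1 h1).2
  have h3 := one_sub_sq_div_two_le_cos (x := arccos ⟪u, s⟫)
  have h4 := arccos_nonneg ⟪u, s⟫
  rw [dist_comm, dist_eq_norm]
  refine le_trans (abs_le_of_sq_le_sq' ?_ h4).2 h
  rw [norm_sub_sq_real, hu, hs]
  linarith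

lemma base_mor {d β γ : ℕ} (hd : 0 < d) (h : 2 * β + 2 * γ ≤ d - 1) {ε : ℝ} (hε : 0 < ε)
    (hε1 : ε ≤ 1) (κ : Measure (Sph d)) [IsProbabilityMeasure κ] :
    Mor (sig d) β (exp (2 * d) * ε ^ γ)
      (fun s => κ {u | arccos ⟪(u : Euc d), s⟫ ≤ ε}) := by
  intro z r hr
  have := sig_prob hd
  set S : Set (Euc d × Sph d) := {p | arccos ⟪(p.2 : Euc d), p.1⟫ ≤ ε} with hS
  have hSm : MeasurableSet S := measurableSet_le (by fun_prop) measurable_const
  have hb : ∀ x : ℝ, 0 < x → x ≤ r → x ≤ ε → ENNReal.ofReal (exp (3 * d) * x ^ (d - 1))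
      ≤ ENNReal.ofReal (exp (2 * d) * ε ^ γ * r ^ β) ^ 2 := fun x h0 h1 h2 => by
    rw [← ENNReal.ofReal_pow (by positivity)]
    refine ENNReal.ofReal_le_ofReal ?_
    have h3 : x ^ (d - 1) ≤ x ^ (2 * β + 2 * γ) := pow_le_pow_of_le_one h0.le (h2.trans hε1) h
    have h4 : exp (3 * d) ≤ exp (2 * d) ^ 2 := by
      rw [← Real.exp_nat_mul]; refine exp_le_exp.2 ?_; push_cast; nlinarith
    calc _ ≤ exp (2 * d) ^ 2 * x ^ (2 * β + 2 * γ) := by gcongr
      _ = exp (2 * d) ^ 2 * (x ^ (2 * γ) * x ^ (2 * β)) := by ring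
      _ ≤ exp (2 * d) ^ 2 * (ε ^ (2 * γ) * r ^ (2 * β)) := by gcongr
      _ = _ := by ring
  calc _ ≤ ∫⁻ s in closedBall z r, κ (Prod.mk s ⁻¹' S) ∂(sig d) := by
        refine lintegral_mono fun s => ?_
        simp only [sq]
        exact mul_le_of_le_one_left' prob_le_one
    _ = ∫⁻ u, ((sig d).restrict (closedBall z r)) ((fun s => (s, u)) ⁻¹' S) ∂κ := by
        rw [← Measure.prod_apply hSm, Measure.prod_apply_symm hSm]
    _ ≤ ∫⁻ _u, ENNReal.ofReal (exp (2 * d) * ε ^ γ * r ^ β) ^ 2 ∂κ := by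
        refine lintegral_mono fun u => ?_
        rcases le_total r ε with h1 | h1
        · refine le_trans ?_ ((cap hd z hr).trans (hb r hr le_rfl h1))
          refine (measure_mono (subset_univ _)).trans ?_
          simp
        · refine le_trans ?_ ((cap hd u hε).trans (hb ε hε h1 le_rfl))
          refine (Measure.restrict_apply_le _ _).trans
            (measure_mono_ae (sig_ae.mono fun s hs h2 => ?_))
          exact dist_le_of_arccos (by simpa using u.2) hs h2
    _ = _ := by simp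

end Vale.Agent.P309
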