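import Mathlib

namespace Vale.Agent.P309
open MeasureTheory ProbabilityTheory
open scoped ENNReal RealInnerProductSpace

/-- Euclidean space of dimension `d`. -/
abbrev Euc (d : ℕ) : Type := EuclideanSpace ℝ (Fin d)

/-- The unit sphere of `Euc d`. -/
abbrev Sph (d : ℕ) : Type := Metric.sphere (0 : Euc d) 1

/-- The uniform probability measure on the unit sphere: normalized surface measure. -/
noncomputable def unif (d : ℕ) : Measure (Sph d) :=
  ((volume : Measure (Euc d)).toSphere Set.univ)⁻¹ • (volume : Measure (Euc d)).toSphere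

/-- A learner with `M` bits. The persistent state lies in `Fin N` with `N ≤ 2 ^ M`; the Boolean
is the stopping decision. -/
structure Learner (d M : ℕ) where
  N : ℕ
  card_le : N ≤ 2 ^ M
  init : Measure (Fin N × Bool)
  init_prob : IsProbabilityMeasure init
  step : ℕ → Kernel (Fin N × (Euc d × ℝ)) (Fin N × Bool)
  step_markov : ∀ t, IsMarkovKernel (step t)
  out : ℕ → Kernel (Fin N) (Sph d)
  out_markov : ∀ t, IsMarkovKernel (out t)

/-- `win L ε s n t a`: probability that the learner, having read `t` pairs, with `n` more pairs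
allowed, in state `a.1` with stopping decision `a.2`, finally outputs a point within angle `ε`
of the signal `s`. -/
noncomputable def win {d M : ℕ} (L : Learner d M) (ε : ℝ) (s : Sph d) :
    ℕ → ℕ → Fin L.N × Bool → ℝ≥0∞
  | 0, t, a => L.out t a.1 {u | Real.arccos ⟪(u : Euc d), (s : Euc d)⟫ ≤ ε}
  | n + 1, t, a =>
      if a.2 = true then L.out t a.1 {u | Real.arccos ⟪(u : Euc d), (s : Euc d)⟫ ≤ ε}
      else ∫⁻ x, ∫⁻ b, win L ε s n (t + 1) b ∂(L.step t (a.1, (x, ⟪x, (s : Euc d)⟫)))
        ∂(stdGaussian (Euc d))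

/-- Success probability with horizon `T` at accuracy `ε`, for a uniform signal. -/
noncomputable def success {d M : ℕ} (L : Learner d M) (T : ℕ) (ε : ℝ) : ℝ≥0∞ :=
  ∫⁻ s, ∫⁻ a, win L ε s T 0 a ∂L.init ∂(unif d)

end Vale.Agent.P309
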