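import Vale.Agent.P309.Vol

namespace Vale.Agent.P309
open MeasureTheory ProbabilityTheory Real Set Metric
open scoped ENNReal RealInnerProductSpace

section Split
variable {F : Type*} [NormedAddCommGroup F] [InnerProductSpace ℝ F] [FiniteDimensional ℝ F]
  [MeasurableSpace F] [BorelSpace F]

lemma gauss_split {e : F} (he : ‖e‖ = 1) :
    ((stdGaussian F).prod (gaussianReal 0 1)).map (fun p : F × ℝ => p.1 + (p.2 - ⟪e, p.1⟫) • e)
      = stdGaussian F := by
  have hm : Measurable (fun p : F × ℝ => p.1 + (p.2 - ⟪e, p.1⟫) • e) := by fun_prop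
  haveI := Measure.isProbabilityMeasure_map
    (μ := (stdGaussian F).prod (gaussianReal 0 1)) hm.aemeasurable
  apply Measure.ext_of_charFun
  ext t
  rw [charFun_apply, integral_map hm.aemeasurable (Measurable.aestronglyMeasurable (by fun_prop))]
  have h1 : ∀ p : F × ℝ, Complex.exp (⟪p.1 + (p.2 - ⟪e, p.1⟫) • e, t⟫ * Complex.I)
      = Complex.exp (⟪p.1, t - ⟪e, t⟫ • e⟫ * Complex.I)
        * Complex.exp ((⟪e, t⟫ : ℝ) * p.2 * Complex.I) := fun p => by
    rw [← Complex.exp_add, ← add_mul, ← Complex.ofReal_mul, ← Complex.ofReal_add]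
    congr 3
    rw [inner_add_left, inner_sub_right, real_inner_smul_left, real_inner_smul_right,
      real_inner_comm p.1 e]
    ring
  simp_rw [h1]
  rw [integral_prod_mul (μ := stdGaussian F) (ν := gaussianReal 0 1)
    (fun x => Complex.exp (⟪x, t - ⟪e, t⟫ • e⟫ * Complex.I))
    (fun y : ℝ => Complex.exp ((⟪e, t⟫ : ℝ) * y * Complex.I)), ← charFun_apply,
    ← charFun_apply_real, charFun_stdGaussian, charFun_stdGaussian, charFun_gaussianReal,
    ← Complex.exp_add]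
  congr 1
  have h2 : ‖t - ⟪e, t⟫ • e‖ ^ 2 = ‖t‖ ^ 2 - ⟪e, t⟫ ^ 2 := by
    rw [norm_sub_sq_real, real_inner_smul_right, norm_smul, he, real_inner_comm e t]
    simp only [Real.norm_eq_abs, mul_one, sq_abs]; ring
  have h3 : ((‖t - ⟪e, t⟫ • e‖ : ℝ) : ℂ) ^ 2 = (‖t‖ : ℂ) ^ 2 - ((⟪e, t⟫ : ℝ) : ℂ) ^ 2 := by
    exact_mod_cast h2
  rw [h3]; simp; ring

lemma gaussianReal_le : gaussianReal 0 1 ≤ (volume : Measure ℝ) := by
  rw [gaussianReal_of_var_ne_zero 0 one_ne_zero]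
  conv_rhs => rw [← withDensity_one (μ := (volume : Measure ℝ))]
  refine withDensity_mono (Filter.Eventually.of_forall fun x => ?_)
  simp only [gaussianPDF, gaussianPDFReal, Pi.one_apply]
  refine ENNReal.ofReal_le_one.2 ?_
  have h1 : 1 ≤ sqrt (2 * π * ((1 : NNReal) : ℝ)) := by
    rw [Real.one_le_sqrt]; simp only [NNReal.coe_one]; nlinarith [pi_gt_three]
  have h2 : exp (-(x - 0) ^ 2 / (2 * ((1 : NNReal) : ℝ))) ≤ 1 := by
    rw [Real.exp_le_one_iff]; simp only [NNReal.coe_one]; nlinarith [sq_nonneg (x - 0)]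
  exact mul_le_one₀ (inv_le_one_of_one_le₀ h1) (exp_pos _).le h2

lemma line_bound {ψ : ℝ → ℝ≥0∞} (hψ : Measurable ψ) (h1 : ∫⁻ y, ψ y ≤ 1) (c : ℝ) {δ : ℝ}
    (hδ : 0 < δ) : ∫⁻ t, ψ (c - t * δ) ∂(gaussianReal 0 1) ≤ (ENNReal.ofReal δ)⁻¹ := by
  refine (lintegral_mono' gaussianReal_le le_rfl).trans ?_
  have hm : Measurable fun y => ψ (c - y) := by fun_prop
  have := lintegral_map (μ := (volume : Measure ℝ)) hm (measurable_mul_const δ)
  rw [← this, Real.map_volume_mul_right hδ.ne', lintegral_smul_measure,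
    lintegral_sub_left_eq_self, abs_of_pos (inv_pos.2 hδ), ENNReal.ofReal_inv_of_pos hδ,
    smul_eq_mul]
  exact mul_le_of_le_one_right' h1

lemma row_bound (W : Submodule ℝ F) (s₁ s : F) {g : F × ℝ → ℝ≥0∞} (hg : Measurable g)
    (hinv : ∀ e ∈ Wᗮ, ∀ x y, g (x + e, y + ⟪e, s₁⟫) = g (x, y))
    {ψ : ℝ → ℝ≥0∞} (hψ : Measurable ψ) (h1 : ∫⁻ y, ψ y ≤ 1) :
    ∫⁻ z, g z * ψ (z.2 - ⟪z.1, s⟫) ∂((stdGaussian F).prod volume)
      ≤ (∫⁻ z, g z ∂((stdGaussian F).prod volume))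
        * (ENNReal.ofReal ‖Wᗮ.starProjection (s - s₁)‖)⁻¹ := by
  set p := Wᗮ.starProjection (s - s₁) with hp
  rcases (norm_nonneg p).eq_or_lt with h0 | h0
  · rw [← h0, ENNReal.ofReal_zero, ENNReal.inv_zero]
    by_cases hI : ∫⁻ z, g z ∂((stdGaussian F).prod volume) = 0
    · rw [lintegral_eq_zero_iff hg] at hI
      refine le_of_eq_of_le ?_ zero_le
      rw [lintegral_congr_ae (g := fun _ => 0) (hI.mono fun z hz => by simp [show g z = 0 from hz])]
      simp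
    · rw [ENNReal.mul_top hI]; exact le_top
  set δ := ‖p‖ with hδ
  set e : F := δ⁻¹ • p with he
  have he1 : ‖e‖ = 1 := by
    rw [he, norm_smul, norm_inv, Real.norm_eq_abs, abs_of_pos h0, inv_mul_cancel₀ h0.ne']
  have heW : e ∈ Wᗮ := Wᗮ.smul_mem _ (Wᗮ.starProjection_apply_mem _)
  have hes : ⟪e, s - s₁⟫ = δ := by
    have : ⟪p, s - s₁⟫ = δ ^ 2 := by
      have h2 := Wᗮ.starProjection_inner_eq_zero (s - s₁) p (Wᗮ.starProjection_apply_mem _)
      rw [← hp, inner_sub_left, real_inner_self_eq_norm_sq, real_inner_comm] at h2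
      linarith
    rw [he, real_inner_smul_left, this]; field_simp
  have hG : Measurable fun z : F × ℝ => g z * ψ (z.2 - ⟪z.1, s⟫) := by fun_prop
  rw [lintegral_prod _ hG.aemeasurable, lintegral_prod _ hg.aemeasurable]
  have hH : Measurable fun x : F => ∫⁻ y, g (x, y) * ψ (y - ⟪x, s⟫) :=
    hG.lintegral_prod_right'
  have hm : Measurable (fun p : F × ℝ => p.1 + (p.2 - ⟪e, p.1⟫) • e) := by fun_prop
  conv_lhs => rw [← gauss_split he1]
  rw [lintegral_map hH hm, lintegral_prod _ (by exact (hH.comp hm).aemeasurable),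
    ← lintegral_mul_const _ hg.lintegral_prod_right']
  refine lintegral_mono fun x => ?_
  have h3 : ∀ t : ℝ, ∫⁻ y, g (x + (t - ⟪e, x⟫) • e, y) * ψ (y - ⟪x + (t - ⟪e, x⟫) • e, s⟫)
      = ∫⁻ y, g (x, y) * ψ ((y - ⟪x, s⟫ + ⟪e, x⟫ * δ) - t * δ) := fun t => by
    rw [← lintegral_add_right_eq_self _ ⟪(t - ⟪e, x⟫) • e, s₁⟫]
    refine lintegral_congr fun y => ?_
    rw [hinv _ (Wᗮ.smul_mem _ heW)]
    congr 2
    have h4 : ⟪e, s⟫ = ⟪e, s₁⟫ + δ := by rw [← hes, inner_sub_right]; ring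
    rw [inner_add_left, real_inner_smul_left e s₁, real_inner_smul_left e s, h4]
    ring
  simp only [h3]
  rw [lintegral_lintegral_swap (by fun_prop), ← lintegral_mul_const _ (by fun_prop)]
  refine lintegral_mono fun y => ?_
  rw [lintegral_const_mul _ (by fun_prop)]
  exact mul_le_mul_right (line_bound hψ h1 _ h0) _

end Split

lemma gauss_exp_one {d : ℕ} (hd : 2 ≤ d) :
    ∫⁻ t, ENNReal.ofReal (exp (t ^ 2 / (2 * d))) ∂(gaussianReal 0 1)
      ≤ ENNReal.ofReal (exp (1 / d)) := by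
  have hd' : (2 : ℝ) ≤ d := by exact_mod_cast hd
  have hx : (1 : ℝ) / d ≤ 1 / 2 := one_div_le_one_div_of_le (by norm_num) hd'
  have hx0 : (0 : ℝ) < 1 / d := by positivity
  set x : ℝ := 1 / d with hxd
  rw [gaussianReal_of_var_ne_zero 0 one_ne_zero,
    lintegral_withDensity_eq_lintegral_mul _ (measurable_gaussianPDF 0 1) (by fun_prop)]
  have hb : 0 < (1 - x) / 2 := by linarith
  have h1 : ∀ t : ℝ, (gaussianPDF 0 1 * fun t => ENNReal.ofReal (exp (t ^ 2 / (2 * d)))) t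
      = ENNReal.ofReal ((sqrt (2 * π))⁻¹) * ENNReal.ofReal (exp (-((1 - x) / 2) * t ^ 2)) :=
    fun t => by
      simp only [Pi.mul_apply, gaussianPDF, gaussianPDFReal, NNReal.coe_one, mul_one, sub_zero]
      rw [← ENNReal.ofReal_mul (by positivity), ← ENNReal.ofReal_mul (by positivity), mul_assoc,
        ← Real.exp_add]
      congr 3
      rw [hxd]; field_simp; ring
  simp_rw [h1]
  rw [lintegral_const_mul _ (by fun_prop), lintegral_gauss hb,
    ← ENNReal.ofReal_mul (by positivity)]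
  refine ENNReal.ofReal_le_ofReal ?_
  rw [← Real.sqrt_inv, ← Real.sqrt_mul (by positivity)]
  refine sqrt_le_iff.2 ⟨(exp_pos _).le, ?_⟩
  rw [← Real.exp_nat_mul]
  have h2 := Real.add_one_le_exp (((2 : ℕ) : ℝ) * x)
  have h3 : (2 * π)⁻¹ * (π / ((1 - x) / 2)) = 1 / (1 - x) := by
    have := pi_pos
    have : 1 - x ≠ 0 := by linarith
    field_simp
  rw [h3]
  refine le_trans ?_ h2
  rw [div_le_iff₀ (by linarith)]
  push_cast
  nlinarith

lemma gauss_exp {d : ℕ} (hd : 2 ≤ d) :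
    ∫⁻ x, ENNReal.ofReal (exp (‖x‖ ^ 2 / (2 * d))) ∂(stdGaussian (EuclideanSpace ℝ (Fin d)))
      ≤ ENNReal.ofReal 3 := by
  rw [← map_pi_eq_stdGaussian, lintegral_map (by fun_prop) (by fun_prop)]
  have h1 : ∀ x : Fin d → ℝ, ENNReal.ofReal (exp (‖WithLp.toLp 2 x‖ ^ 2 / (2 * d)))
      = ∏ i, ENNReal.ofReal (exp (x i ^ 2 / (2 * d))) := fun x => by
    rw [← ENNReal.ofReal_prod_of_nonneg (fun i _ => (exp_pos _).le), ← Real.exp_sum,
      EuclideanSpace.real_norm_sq_eq, Finset.sum_div]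
  simp_rw [h1]
  rw [lintegral_pi_prod (gaussianReal 0 1)
    (fun _ t => ENNReal.ofReal (exp (t ^ 2 / (2 * d)))) (fun i => by fun_prop)]
  refine (Finset.prod_le_prod' fun i _ => gauss_exp_one hd).trans ?_
  rw [Finset.prod_const, Finset.card_univ, Fintype.card_fin, ← ENNReal.ofReal_pow (exp_pos _).le,
    ← Real.exp_nat_mul]
  refine ENNReal.ofReal_le_ofReal ?_
  have : (d : ℝ) ≠ 0 := by positivity
  rw [mul_one_div_cancel this]
  exact Real.exp_one_lt_d9.le.trans (by norm_num)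

end Vale.Agent.P309
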