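import Vale.Agent.P309.Cap

namespace Vale.Agent.P309
open MeasureTheory ProbabilityTheory Real Set Metric Filter
open scoped ENNReal RealInnerProductSpace Topology

/-- `V` is dominated by a mixture of the `U a` with weights read off a block of `k` pairs -/
def Rp {d : ℕ} {ι : Type*} [Fintype ι] (U : ι → Euc d → ℝ≥0∞) (k : ℕ) (V : Euc d → ℝ≥0∞) : Prop :=
  ∃ f : ι → Zs d k → ℝ≥0∞, (∀ a, Measurable (f a)) ∧ (∀ Z, ∑ a, f a Z ≤ 1) ∧
    ∀ s, V s ≤ ∫⁻ X, ∑ a, f a (emb s X) * U a s ∂(Gam d k)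

lemma Rp.base {d : ℕ} {ι : Type*} [Fintype ι] (U : ι → Euc d → ℝ≥0∞) (k : ℕ) (a : ι) :
    Rp U k (U a) := by
  classical
  refine ⟨fun b _ => if b = a then 1 else 0, fun b => measurable_const, fun Z => by simp,
    fun s => ?_⟩
  simp [ite_mul]

lemma Rp.step {d k : ℕ} {ι β : Type*} [Fintype ι] [Fintype β] {U : ι → Euc d → ℝ≥0∞}
    {κ : β → Euc d × ℝ → ℝ≥0∞} (hκ : ∀ b, Measurable (κ b)) (hκ1 : ∀ z, ∑ b, κ b z ≤ 1)
    {V : β → Euc d → ℝ≥0∞} (hV : ∀ b, Rp U k (V b)) :
    Rp U (k + 1) (fun s => ∫⁻ x, ∑ b, V b s * κ b (x, ⟪x, s⟫) ∂(stdGaussian (Euc d))) := by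
  choose f hf hf1 hle using hV
  have ht : Measurable fun Z : Zs d (k + 1) => (fun i => Z i.succ : Zs d k) := by fun_prop
  have hm : ∀ a, Measurable fun Z : Zs d (k + 1) => ∑ b, κ b (Z 0) * f b a (fun i => Z i.succ) :=
    fun a => Finset.measurable_sum _ fun b _ =>
      ((hκ b).comp (measurable_pi_apply 0)).mul ((hf b a).comp ht)
  refine ⟨fun a Z => ∑ b, κ b (Z 0) * f b a (fun i => Z i.succ), hm, fun Z => ?_, fun s => ?_⟩
  · rw [Finset.sum_comm]
    refine le_trans (Finset.sum_le_sum fun b _ => ?_) (hκ1 (Z 0))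
    rw [← Finset.mul_sum]
    exact mul_le_of_le_one_right' (hf1 b _)
  · have hm2 : Measurable fun X : Fin (k + 1) → Euc d =>
        ∑ a, (∑ b, κ b (emb s X 0) * f b a (fun i => emb s X i.succ)) * U a s :=
      Finset.measurable_sum _ fun a _ => ((hm a).comp (measurable_emb' s)).mul_const _
    rw [lintegral_pi_succ _ _ hm2]
    refine lintegral_mono fun x => ?_
    have hm3 : ∀ b, Measurable fun X : Fin k → Euc d => ∑ a, f b a (emb s X) * U a s :=
      fun b => Finset.measurable_sum _ fun a _ => ((hf b a).comp (measurable_emb' s)).mul_const _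
    calc ∑ b, V b s * κ b (x, ⟪x, s⟫)
        ≤ ∑ b, ∫⁻ X, κ b (x, ⟪x, s⟫) * ∑ a, f b a (emb s X) * U a s ∂(Gam d k) := by
          refine Finset.sum_le_sum fun b _ => ?_
          rw [lintegral_const_mul _ (hm3 b), mul_comm]
          exact mul_le_mul_right (hle b s) _
      _ = _ := by
          rw [← lintegral_finsetSum _ fun b _ => (hm3 b).const_mul _]
          refine lintegral_congr fun X => ?_
          simp only [Finset.mul_sum, Finset.sum_mul]
          rw [Finset.sum_comm]
          refine Finset.sum_congr rfl fun a _ => Finset.sum_congr rfl fun b _ => ?_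
          rw [mul_assoc]
          rfl

/-- the value function, for a signal anywhere in the ambient space -/
noncomputable def winE {d M : ℕ} (L : Learner d M) (ε : ℝ) :
    ℕ → ℕ → Fin L.N × Bool → Euc d → ℝ≥0∞
  | 0, t, a, s => L.out t a.1 {u | Real.arccos ⟪(u : Euc d), s⟫ ≤ ε}
  | n + 1, t, a, s =>
      if a.2 = true then L.out t a.1 {u | Real.arccos ⟪(u : Euc d), s⟫ ≤ ε}
      else ∫⁻ x, ∑ b, winE L ε n (t + 1) b s * L.step t (a.1, (x, ⟪x, s⟫)) {b}
        ∂(stdGaussian (Euc d))

variable {d M : ℕ} (L : Learner d M) (ε : ℝ)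

lemma win_eq (s : Sph d) : ∀ n t a, win L ε s n t a = winE L ε n t a s
  | 0, _, _ => rfl
  | n + 1, t, a => by
    simp only [win, winE, lintegral_fintype, win_eq s n]

lemma meas_step (t : ℕ) (w : Fin L.N) (b : Fin L.N × Bool) :
    Measurable fun z : Euc d × ℝ => L.step t (w, z) {b} :=
  (Kernel.measurable_coe _ (measurableSet_singleton b)).comp measurable_prodMk_left

lemma sum_step (t : ℕ) (w : Fin L.N) (z : Euc d × ℝ) : ∑ b, L.step t (w, z) {b} = 1 := by
  have := L.step_markov t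
  simp

lemma meas_winE : ∀ n t a, Measurable (winE L ε n t a)
  | 0, t, a => by
    have := L.out_markov t
    have hS : MeasurableSet {p : Euc d × Sph d | arccos ⟪(p.2 : Euc d), p.1⟫ ≤ ε} :=
      measurableSet_le (by fun_prop) measurable_const
    exact measurable_measure_prodMk_left hS
  | n + 1, t, a => by
    by_cases h : a.2 = true
    · have : winE L ε (n + 1) t a = winE L ε 0 t a := by
        funext s; simp only [winE, if_pos h]
      rw [this]; exact meas_winE 0 t a
    · have : winE L ε (n + 1) t a = fun s => ∫⁻ x, ∑ b, winE L ε n (t + 1) b s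
          * L.step t (a.1, (x, ⟪x, s⟫)) {b} ∂(stdGaussian (Euc d)) := by
        funext s; simp only [winE, if_neg h]
      rw [this]
      refine Measurable.lintegral_prod_right' (f := fun q : Euc d × Euc d =>
        ∑ b, winE L ε n (t + 1) b q.1 * L.step t (a.1, (q.2, ⟪q.2, q.1⟫)) {b}) ?_
      exact Finset.measurable_sum _ fun b _ => ((meas_winE n (t + 1) b).comp measurable_fst).mul
        ((meas_step L t a.1 b).comp (by fun_prop))

lemma winE_le_one : ∀ n t a s, winE L ε n t a s ≤ 1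
  | 0, t, a, s => by
    have := L.out_markov t
    exact prob_le_one
  | n + 1, t, a, s => by
    have := L.out_markov t
    simp only [winE]
    split_ifs
    · exact prob_le_one
    · calc _ ≤ ∫⁻ _x, 1 ∂(stdGaussian (Euc d)) := by
            refine lintegral_mono fun x => ?_
            rw [← sum_step L t a.1 (x, ⟪x, s⟫)]
            exact Finset.sum_le_sum fun b _ => mul_le_of_le_one_left' (winE_le_one n _ b s)
        _ = 1 := by simp

/-- terminal values of a block -/
noncomputable def term (p n e : ℕ) (c : Fin (p + 1) × (Fin L.N × Bool)) : Euc d → ℝ≥0∞ :=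
  if c.1 = 0 then winE L ε n e c.2 else winE L ε 0 (e - c.1) c.2

lemma unroll (p n e : ℕ) : ∀ i, i ≤ p → ∀ t, t + i = e → ∀ a,
    Rp (term L ε p n e) i (winE L ε (n + i) t a)
  | 0, _, t, ht, a => by
    have := Rp.base (term L ε p n e) 0 (0, a)
    simpa [term, ← ht] using this
  | i + 1, hi, t, ht, a => by
    by_cases h : a.2 = true
    · have h1 : winE L ε (n + (i + 1)) t a = term L ε p n e (⟨i + 1, by omega⟩, a) := by
        funext s
        have : e - (i + 1) = t := by omega
        simp [term, Fin.ext_iff, this, ← add_assoc, winE, h]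
      rw [h1]; exact Rp.base _ _ _
    · have h1 : winE L ε (n + (i + 1)) t a = fun s => ∫⁻ x, ∑ b, winE L ε (n + i) (t + 1) b s
          * L.step t (a.1, (x, ⟪x, s⟫)) {b} ∂(stdGaussian (Euc d)) := by
        funext s; simp only [← add_assoc, winE, if_neg h]; rfl
      rw [h1]
      exact Rp.step (κ := fun b z => L.step t (a.1, z) {b}) (meas_step L t a.1)
        (fun z => (sum_step L t a.1 z).le)
        (fun b => unroll p n e i (by omega) (t + 1) (by omega) b)

lemma mor_win {m : ℕ} (hd : 8 * (m + 1) ≤ d) (hε : 0 < ε) (hε1 : ε ≤ 1) {Λ A : ℝ} (hΛ : 0 < Λ)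
    (hN : ((m + 2) * (2 ^ M * 2) : ℝ) ≤ Λ ^ (m + 1))
    (hA : Λ * exp (4 * d) * 6 ^ (m + 1) + 1 ≤ A) :
    ∀ j n, n ≤ j * (m + 1) → ∀ t a,
      Mor (sig d) (2 * (m + 1)) (A ^ j * (exp (2 * d) * ε ^ (m + 1))) (winE L ε n t a) := by
  have hA1 : 1 ≤ A := le_trans (le_add_of_nonneg_left (by positivity)) hA
  have hbase : ∀ t a, Mor (sig d) (2 * (m + 1)) (exp (2 * d) * ε ^ (m + 1)) (winE L ε 0 t a) :=
    fun t a => by
      have := L.out_markov t
      exact base_mor (by omega) (by omega) hε hε1 (L.out t a.1)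
  have := sig_prob (d := d) (by omega)
  intro j
  induction j with
  | zero =>
    intro n hn t a
    obtain rfl : n = 0 := by omega
    simpa using hbase t a
  | succ j ih =>
    intro n hn t a
    obtain ⟨i, n', hi, hn', rfl⟩ : ∃ i n', i ≤ m + 1 ∧ n' ≤ j * (m + 1) ∧ n = n' + i := by
      rw [Nat.succ_mul] at hn
      exact ⟨min n (m + 1), n - min n (m + 1), min_le_right _ _, by omega, by omega⟩
    obtain ⟨f, hf, hf1, hle⟩ := unroll L ε (m + 1) n' (t + i) i hi t rfl a
    rw [pow_succ', mul_assoc]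
    refine block (m := m) (L := Λ) (by omega) (by omega) (by omega) (sig d) (by positivity) hΛ
      ?_ ?_ hf hf1 (fun c => ?_) (fun c => ?_) (meas_winE L ε _ _ _) (winE_le_one L ε _ _ _) hle
    · refine le_trans ?_ hN
      have : (L.N : ℝ) ≤ 2 ^ M := by exact_mod_cast L.card_le
      simp only [Fintype.card_prod, Fintype.card_fin, Fintype.card_bool]
      push_cast
      rw [add_assoc (m : ℝ), one_add_one_eq_two]
      gcongr
    · refine le_trans ?_ hA
      gcongr
      norm_num
    · unfold term; split_ifs <;> exact meas_winE L ε _ _ _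
    · unfold term; split_ifs
      · exact ih _ hn' _ _
      · exact (hbase _ _).mono (le_mul_of_one_le_left (by positivity) (one_le_pow₀ hA1))

lemma success_le {β T : ℕ} (hd : 0 < d) {K : ℝ}
    (h : ∀ a, Mor (sig d) β K (winE L ε T 0 a)) : success L T ε ≤ ENNReal.ofReal K := by
  have := sig_prob hd
  have := unif_prob hd
  have := L.init_prob
  unfold success
  simp only [win_eq, lintegral_fintype]
  have hm : ∀ a, Measurable fun s : Sph d => winE L ε T 0 a s := fun a =>
    (meas_winE L ε T 0 a).comp measurable_subtype_coe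
  rw [lintegral_finsetSum _ fun a _ => (hm a).mul_const _]
  calc _ ≤ ∑ a, ENNReal.ofReal K * L.init {a} := by
        refine Finset.sum_le_sum fun a _ => ?_
        rw [lintegral_mul_const _ (hm a)]
        refine mul_le_mul_left ?_ _
        rw [← lintegral_map (meas_winE L ε T 0 a) measurable_subtype_coe]
        have h1 := h a 0 1 one_pos
        rw [Measure.restrict_eq_self_of_ae_mem (sig_ae.mono fun s hs => by simp [hs])] at h1
        have h2 := cs (sig d) (meas_winE L ε T 0 a) (g := fun _ => 1) measurable_const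
          (y := 1) h1 (by simp)
        simpa [sig] using h2
    _ = _ := by rw [← Finset.mul_sum]; simp

theorem tradeoff (hd : 16 ≤ d) (hε : 0 < ε) (hε1 : ε ≤ 1) (T : ℕ)
    (hs : 2 / 3 ≤ success L T ε) :
    d * log (1 / ε) ≤ 4096 * (T + d) * (1 + M / (d : ℝ) ^ 2) := by
  obtain ⟨m, hm1, hm2⟩ : ∃ m, 8 * (m + 1) ≤ d ∧ d ≤ 16 * (m + 1) := ⟨d / 8 - 1, by omega, by omega⟩
  set p : ℝ := m + 1 with hp
  have hp0 : 0 < p := by positivity
  have hp1 : 8 * p ≤ d := by rw [hp]; exact_mod_cast hm1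
  have hp2 : d ≤ 16 * p := by rw [hp]; exact_mod_cast hm2
  have hd' : (16 : ℝ) ≤ d := by exact_mod_cast hd
  have hN : ((m + 2) * (2 ^ M * 2) : ℝ) ≤ (4 * exp (M / p)) ^ (m + 1) := by
    have h1 : ((m + 2 : ℕ) : ℝ) ≤ 2 ^ (m + 1) := by exact_mod_cast Nat.lt_two_pow_self (n := m + 1)
    have h2 : (2 : ℝ) ≤ 2 ^ (m + 1) := by
      calc (2 : ℝ) = 2 ^ 1 := by norm_num
        _ ≤ _ := pow_le_pow_right₀ (by norm_num) (by omega)
    have h3 : (2 : ℝ) ^ M ≤ exp (M / p) ^ (m + 1) := by
      rw [← Real.exp_nat_mul, show ((m + 1 : ℕ) : ℝ) * (M / p) = M * 1 by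
        push_cast; rw [← hp]; field_simp, Real.exp_nat_mul]
      gcongr
      linarith [Real.exp_one_gt_d9]
    push_cast at h1
    calc _ ≤ 2 ^ (m + 1) * (exp (M / p) ^ (m + 1) * 2 ^ (m + 1)) := by gcongr
      _ = _ := by rw [show (4 : ℝ) = 2 * 2 by norm_num, mul_pow, mul_pow]; ring
  have he2 : (6 : ℝ) ≤ exp 2 := by
    have : exp 2 = exp 1 ^ 2 := by rw [← Real.exp_nat_mul]; norm_num
    rw [this]; nlinarith [Real.exp_one_gt_d9]
  have hA : 4 * exp (M / p) * exp (4 * d) * 6 ^ (m + 1) + 1 ≤ exp (M / p + 6 * d) := by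
    have h1 : (6 : ℝ) ^ (m + 1) ≤ exp (2 * p) := by
      rw [show 2 * p = ((m + 1 : ℕ) : ℝ) * 2 by push_cast; ring, Real.exp_nat_mul]
      gcongr
    have h2 : 1 ≤ exp (M / p) * exp (4 * d) * exp (2 * p) := by
      rw [← Real.exp_add, ← Real.exp_add]; exact Real.one_le_exp (by positivity)
    calc _ ≤ 4 * exp (M / p) * exp (4 * d) * exp (2 * p)
          + exp (M / p) * exp (4 * d) * exp (2 * p) := by gcongr
      _ = 5 * (exp (M / p) * exp (4 * d) * exp (2 * p)) := by ring
      _ ≤ exp 2 * (exp (M / p) * exp (4 * d) * exp (2 * p)) := by gcongr; linarith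
      _ ≤ _ := by
        rw [← Real.exp_add, ← Real.exp_add, ← Real.exp_add]
        exact exp_le_exp.2 (by linarith)
  have hT : T ≤ (T / (m + 1) + 1) * (m + 1) := by
    have := Nat.lt_div_mul_add (a := T) (b := m + 1) (by omega)
    rw [add_mul]; omega
  have h1 := hs.trans (success_le L ε (by omega)
    (mor_win L ε hm1 hε hε1 (by positivity) hN hA _ T hT 0))
  have h2 : (2 / 3 : ℝ≥0∞) = ENNReal.ofReal (2 / 3) := by
    rw [ENNReal.ofReal_div_of_pos (by norm_num)]; simp
  rw [h2, ENNReal.ofReal_le_ofReal_iff (by positivity)] at h1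
  have h3 := Real.log_le_log (by norm_num) h1
  rw [Real.log_mul (by positivity) (by positivity), Real.log_mul (by positivity) (by positivity),
    Real.log_pow, Real.log_pow, Real.log_exp, Real.log_exp] at h3
  have h4 : -1 ≤ log (2 / 3) := by
    have := Real.one_sub_inv_le_log_of_pos (x := 2 / 3) (by norm_num)
    linarith
  have h5 : ((T / (m + 1) : ℕ) : ℝ) ≤ T / p := by
    rw [hp]; exact_mod_cast Nat.cast_div_le (α := ℝ) (m := T) (n := m + 1)
  push_cast at h3
  rw [← hp] at h3
  rw [one_div, Real.log_inv]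
  have hl : 0 ≤ -log ε := by linarith [Real.log_nonpos hε.le hε1]
  have hd0 : (0 : ℝ) < d := by linarith
  have h6 : (T : ℝ) / p ≤ 16 * (T / d) := by
    rw [← mul_div_assoc, div_le_div_iff₀ hp0 hd0]; nlinarith [(Nat.cast_nonneg T : (0 : ℝ) ≤ T)]
  have h7 : (M : ℝ) / p ≤ 16 * (M / d) := by
    rw [← mul_div_assoc, div_le_div_iff₀ hp0 hd0]; nlinarith [(Nat.cast_nonneg M : (0 : ℝ) ≤ M)]
  set x : ℝ := T / d with hx
  set y : ℝ := M / d with hy
  have hx0 : 0 ≤ x := by positivity
  have hy0 : 0 ≤ y := by positivity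
  have h8 : 4096 * (T + d) * (1 + M / (d : ℝ) ^ 2) = 4096 * ((x + 1) * (y + d)) := by
    rw [hx, hy]; field_simp; ring
  have h9 : (((T / (m + 1) : ℕ) : ℝ) + 1) * (M / p + 6 * d) ≤ (16 * x + 1) * (16 * y + 6 * d) := by
    gcongr
    exact h5.trans h6
  rw [h8]
  have h10 : d * -log ε ≤ 16 * (p * -log ε) := by nlinarith
  nlinarith [mul_nonneg hx0 hy0, mul_nonneg hx0 hd0.le]

end Vale.Agent.P309
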