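import Vale.Agent.P309.Gau
import Vale.Agent.P309.Defs

namespace Vale.Agent.P309
open MeasureTheory ProbabilityTheory Real Set Metric
open scoped ENNReal RealInnerProductSpace

abbrev Zs (d k : ℕ) : Type := Fin k → Euc d × ℝ

noncomputable abbrev Lam (d k : ℕ) : Measure (Zs d k) :=
  Measure.pi fun _ => (stdGaussian (Euc d)).prod volume

noncomputable abbrev Gam (d k : ℕ) : Measure (Fin k → Euc d) :=
  Measure.pi fun _ => stdGaussian (Euc d)

noncomputable def emb {d k : ℕ} (s : Euc d) (X : Fin k → Euc d) : Zs d k :=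
  fun i => (X i, ⟪X i, s⟫)

lemma measurable_emb {d k : ℕ} :
    Measurable fun p : Euc d × (Fin k → Euc d) => emb p.1 p.2 := by
  unfold emb; fun_prop

lemma lintegral_Lam {d k : ℕ} {F : Zs d k → ℝ≥0∞} (hF : Measurable F) :
    ∫⁻ Z, F Z ∂(Lam d k) = ∫⁻ X, ∫⁻ y : Fin k → ℝ, F (fun i => (X i, y i)) ∂volume ∂(Gam d k) := by
  have h := (measurePreserving_arrowProdEquivProdArrow (Euc d) ℝ (Fin k)
    (fun _ => stdGaussian (Euc d)) (fun _ => volume)).symm
  have hm : Measurable fun a =>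
      F ((MeasurableEquiv.arrowProdEquivProdArrow (Euc d) ℝ (Fin k)).symm a) :=
    hF.comp h.measurable
  rw [← h.lintegral_comp hF, lintegral_prod _ hm.aemeasurable]
  rfl

def Om {d : ℕ} (k : ℕ) (z : Euc d) (r : ℝ) : Set (Zs d k) :=
  {Z | ∀ a : Fin k → ℝ, ∑ i, a i * ((Z i).2 - ⟪(Z i).1, z⟫) ≤ r * ‖∑ i, a i • (Z i).1‖}

lemma isClosed_Om {d k : ℕ} (z : Euc d) (r : ℝ) : IsClosed (Om k z r) := by
  unfold Om
  rw [setOf_forall]
  exact isClosed_iInter fun a => isClosed_le (by fun_prop) (by fun_prop)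

lemma emb_mem_Om {d k : ℕ} {z s : Euc d} {r : ℝ} (hs : s ∈ closedBall z r) (X : Fin k → Euc d) :
    emb s X ∈ Om k z r := fun a => by
  simp only [emb, ← inner_sub_right, ← real_inner_smul_left, ← sum_inner]
  refine (real_inner_le_norm _ _).trans ?_
  rw [mul_comm]
  exact mul_le_mul_of_nonneg_right (by simpa [dist_eq_norm] using hs) (norm_nonneg _)

/-- singular value frame for a family of rows -/
lemma exists_frame {d k : ℕ} (X : Fin k → Euc d) :
    ∃ (u : OrthonormalBasis (Fin k) ℝ (Euc k)) (l : Fin k → ℝ), (∀ j, 0 ≤ l j) ∧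
      ∑ j, l j = ∑ i, ‖X i‖ ^ 2 ∧
      ∀ c : Fin k → ℝ, ‖∑ i, (∑ j, c j • u j) i • X i‖ ^ 2 = ∑ j, c j ^ 2 * l j := by
  let B : Euc k →ₗ[ℝ] Euc d :=
    { toFun := fun a => ∑ i, a i • X i
      map_add' := fun a b => by simp [add_smul, Finset.sum_add_distrib]
      map_smul' := fun t a => by simp [Finset.smul_sum, mul_smul] }
  have hB : ∀ a, B a = ∑ i, a i • X i := fun a => rfl
  have hT : (B.adjoint ∘ₗ B).IsSymmetric := fun a b => by
    simp only [LinearMap.comp_apply]
    rw [LinearMap.adjoint_inner_left, LinearMap.adjoint_inner_right]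
  have hn : Module.finrank ℝ (Euc k) = k := by simp
  set u := hT.eigenvectorBasis hn
  set l := hT.eigenvalues hn
  have h1 : ∀ i j, ⟪B (u i), B (u j)⟫ = if i = j then l j else 0 := fun i j => by
    have := hT.apply_eigenvectorBasis hn j
    simp only [LinearMap.comp_apply] at this
    rw [← LinearMap.adjoint_inner_right, this, real_inner_smul_right,
      orthonormal_iff_ite.1 u.orthonormal i j]
    split_ifs <;> simp [l]
  have h2 : ∀ j, l j = ‖B (u j)‖ ^ 2 := fun j => by
    rw [← real_inner_self_eq_norm_sq, h1]; simp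
  refine ⟨u, l, fun j => by rw [h2]; positivity, ?_, fun c => ?_⟩
  · simp_rw [h2, EuclideanSpace.real_norm_sq_eq]
    rw [Finset.sum_comm, Finset.sum_comm (f := fun i m => X i m ^ 2)]
    refine Finset.sum_congr rfl fun m _ => ?_
    have h3 : ∀ j, B (u j) m = ⟪u j, WithLp.toLp 2 fun i => X i m⟫ := fun j => by
      simp [hB, PiLp.inner_apply, mul_comm]
    simp_rw [h3]
    rw [u.sum_sq_inner_right, EuclideanSpace.real_norm_sq_eq]
  · rw [← hB, map_sum, ← real_inner_self_eq_norm_sq, sum_inner]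
    refine Finset.sum_congr rfl fun j _ => ?_
    simp_rw [inner_sum, map_smul, real_inner_smul_left, real_inner_smul_right, h1]
    simp [sq, mul_assoc]

lemma vol_Om_slice {d k : ℕ} (hd : 0 < d) (z : Euc d) {r : ℝ} (hr : 0 < r) (X : Fin k → Euc d) :
    volume {y : Fin k → ℝ | (fun i => (X i, y i)) ∈ Om k z r}
      ≤ ENNReal.ofReal (exp d * (2 * r) ^ k) * ∏ i, ENNReal.ofReal (exp (‖X i‖ ^ 2 / (2 * d))) := by
  obtain ⟨u, l, hl, hs, hc⟩ := exists_frame X
  have hd' : (0 : ℝ) < d := by exact_mod_cast hd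
  have hpos : ∀ j, 0 < l j + d := fun j => by have := hl j; linarith
  have hm := (PiLp.volume_preserving_toLp (Fin k)).comp
    (measurePreserving_sub_right (volume : Measure (Fin k → ℝ)) (fun i => ⟪X i, z⟫))
  have hE := vol_ell u (fun j => d / (r ^ 2 * (l j + d)))
    (fun j => div_pos hd' (mul_pos (by positivity) (hpos j))) d
  have hS : MeasurableSet {x : Euc k | ∑ j, d / (r ^ 2 * (l j + d)) * ⟪u j, x⟫ ^ 2 ≤ d} :=
    measurableSet_le (by fun_prop) measurable_const
  rw [← hm.measure_preimage hS.nullMeasurableSet] at hE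
  refine le_trans (measure_mono fun y hy => ?_) (hE.trans ?_)
  · set w : Euc k := WithLp.toLp 2 (y - fun i => ⟪X i, z⟫) with hw
    change ∑ j, d / (r ^ 2 * (l j + d)) * ⟪u j, w⟫ ^ 2 ≤ d
    set c : Fin k → ℝ := fun j => ⟪u j, w⟫ / (l j + d) with hcd
    set S := ∑ j, ⟪u j, w⟫ ^ 2 / (l j + d) with hS
    have hS0 : 0 ≤ S := Finset.sum_nonneg fun j _ => div_nonneg (sq_nonneg _) (hpos j).le
    have h1 := hy (fun i => (∑ j, c j • u j) i)
    have h2 : ∑ i, (∑ j, c j • u j) i * (y i - ⟪X i, z⟫) = S := by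
      have : ∑ i, (∑ j, c j • u j) i * (y i - ⟪X i, z⟫) = ⟪∑ j, c j • u j, w⟫ := by
        simp only [PiLp.inner_apply, hw, Pi.sub_apply, RCLike.inner_apply, conj_trivial]
        exact Finset.sum_congr rfl fun i _ => mul_comm _ _
      rw [this, sum_inner]
      refine Finset.sum_congr rfl fun j _ => ?_
      rw [real_inner_smul_left, hcd]; ring
    have h3 : ‖∑ i, (∑ j, c j • u j) i • X i‖ ^ 2 ≤ S := by
      rw [hc]
      refine Finset.sum_le_sum fun j _ => ?_
      have := hpos j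
      rw [hcd, div_pow, div_mul_eq_mul_div, div_le_div_iff₀ (by positivity) this]
      have := hl j
      have h5 : l j * (l j + d) ≤ (l j + d) ^ 2 := by nlinarith
      calc _ = ⟪u j, w⟫ ^ 2 * (l j * (l j + d)) := by ring
        _ ≤ _ := by gcongr
    simp only at h1
    rw [h2] at h1
    have h4 : S ≤ r ^ 2 := by
      set N := ‖∑ i, (∑ j, c j • u j) i • X i‖
      have hN : 0 ≤ N := norm_nonneg _
      by_contra hcon
      push Not at hcon
      have : S ^ 2 ≤ (r * N) ^ 2 := by gcongr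
      nlinarith [sq_nonneg r, mul_pow r N 2]
    have h5 : ∑ j, d / (r ^ 2 * (l j + d)) * ⟪u j, w⟫ ^ 2 = d / r ^ 2 * S := by
      rw [hS, Finset.mul_sum]
      refine Finset.sum_congr rfl fun j _ => ?_
      have := hpos j
      field_simp
    rw [h5, div_mul_eq_mul_div, div_le_iff₀ (by positivity)]
    gcongr
  · rw [← ENNReal.ofReal_prod_of_nonneg (fun i _ => (exp_pos _).le),
      ← ENNReal.ofReal_mul (by positivity), ← Real.exp_sum, ← Finset.sum_div, ← hs,
      Finset.sum_div, Real.exp_sum]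
    refine ENNReal.ofReal_le_ofReal ?_
    rw [mul_assoc]
    gcongr
    have : (2 * r) ^ k = ∏ _j : Fin k, (2 * r) := by simp
    rw [this, ← Finset.prod_mul_distrib]
    refine Finset.prod_le_prod (fun j _ => sqrt_nonneg _) fun j _ => ?_
    refine sqrt_le_iff.2 ⟨by positivity, ?_⟩
    have h1 := Real.add_one_le_exp (l j / d)
    have h2 : exp (l j / (2 * d)) ^ 2 = exp (l j / d) := by
      rw [← Real.exp_nat_mul]; congr 1; push_cast; field_simp
    have h3 : π / (d / (r ^ 2 * (l j + d))) = π * r ^ 2 * (l j / d + 1) := by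
      have := hpos j
      field_simp
    rw [mul_pow, h2, h3]
    have h4 : π * r ^ 2 ≤ (2 * r) ^ 2 := by nlinarith [pi_lt_four, sq_nonneg r]
    have := hl j
    gcongr

lemma Lam_Om {d k : ℕ} (hd : 2 ≤ d) (z : Euc d) {r : ℝ} (hr : 0 < r) :
    Lam d k (Om k z r) ≤ ENNReal.ofReal (exp d * (6 * r) ^ k) := by
  have hS : MeasurableSet (Om k z r) := (isClosed_Om z r).measurableSet
  rw [← lintegral_indicator_one hS, lintegral_Lam (measurable_one.indicator hS)]
  have h1 : ∀ X : Fin k → Euc d,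
      ∫⁻ y : Fin k → ℝ, (Om k z r).indicator (1 : Zs d k → ℝ≥0∞) (fun i => (X i, y i))
      = volume {y : Fin k → ℝ | (fun i => (X i, y i)) ∈ Om k z r} := fun X => by
    have h0 : MeasurableSet {y : Fin k → ℝ | (fun i => (X i, y i)) ∈ Om k z r} :=
      hS.preimage (f := fun (y : Fin k → ℝ) i => (X i, y i)) (by fun_prop)
    rw [← lintegral_indicator_one h0]
    rfl
  simp_rw [h1]
  refine (lintegral_mono fun X => vol_Om_slice (by omega) z hr X).trans ?_
  rw [lintegral_const_mul _ (by fun_prop), lintegral_pi_prod (stdGaussian (Euc d))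
    (fun _ x => ENNReal.ofReal (exp (‖x‖ ^ 2 / (2 * d)))) (fun i => by fun_prop)]
  refine (mul_le_mul_right (Finset.prod_le_prod' fun i _ => gauss_exp hd) _).trans ?_
  rw [Finset.prod_const, Finset.card_univ, Fintype.card_fin, ← ENNReal.ofReal_pow (by norm_num),
    ← ENNReal.ofReal_mul (by positivity), mul_assoc, ← mul_pow]
  refine le_of_eq ?_
  congr 3; ring

end Vale.Agent.P309
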