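import Vale.Agent.P309.Tube

namespace Vale.Agent.P309
open MeasureTheory ProbabilityTheory Real Set Metric Filter
open scoped ENNReal RealInnerProductSpace Topology

lemma sigmaFinite_Lam (d k : ℕ) : SigmaFinite (Lam d k) := by
  have : SigmaFinite ((stdGaussian (Euc d)).prod (volume : Measure ℝ)) := inferInstance
  exact Measure.pi.sigmaFinite _

lemma weaklyRegular_Lam (d k : ℕ) : (Lam d k).WeaklyRegular := by
  have : SigmaFinite ((stdGaussian (Euc d)).prod (volume : Measure ℝ)) := inferInstance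
  have : IsLocallyFiniteMeasure ((stdGaussian (Euc d)).prod (volume : Measure ℝ)) := inferInstance
  have : IsLocallyFiniteMeasure (Lam d k) := Measure.pi.isLocallyFiniteMeasure
  infer_instance

/-- smoothed likelihood of a block -/
noncomputable def Psi {d k : ℕ} (ψ : ℝ → ℝ≥0∞) (s : Euc d) (Z : Zs d k) : ℝ≥0∞ :=
  ∏ i, ψ ((Z i).2 - ⟪(Z i).1, s⟫)

lemma measurable_Psi {d k : ℕ} {ψ : ℝ → ℝ≥0∞} (hψ : Measurable ψ) :
    Measurable fun p : Euc d × Zs d k => Psi ψ p.1 p.2 := by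
  unfold Psi; fun_prop

/-- smoothed density -/
noncomputable def den {d k : ℕ} (ψ : ℝ → ℝ≥0∞) (μ : Measure (Euc d)) (Z : Zs d k) : ℝ≥0∞ :=
  ∫⁻ s, Psi ψ s Z ∂μ

lemma measurable_den {d k : ℕ} {ψ : ℝ → ℝ≥0∞} (hψ : Measurable ψ) (μ : Measure (Euc d))
    [SFinite μ] : Measurable (den (k := k) ψ μ) :=
  (measurable_Psi hψ).lintegral_prod_left'

lemma swap_den {d k : ℕ} {ψ : ℝ → ℝ≥0∞} (hψ : Measurable ψ) (μ : Measure (Euc d)) [SFinite μ]
    {G : Zs d k → ℝ≥0∞} (hG : Measurable G) :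
    ∫⁻ Z, G Z * den ψ μ Z ∂(Lam d k) = ∫⁻ s, ∫⁻ Z, G Z * Psi ψ s Z ∂(Lam d k) ∂μ := by
  have hP := measurable_Psi (d := d) (k := k) hψ
  have := sigmaFinite_Lam d k
  rw [lintegral_lintegral_swap (f := fun s Z => G Z * Psi ψ s Z)
    ((hG.comp measurable_snd).mul hP).aemeasurable]
  refine lintegral_congr fun Z => ?_
  rw [den, lintegral_const_mul _ (by exact hP.comp measurable_prodMk_right)]

lemma replica_aux {d k m : ℕ} {ψ : ℝ → ℝ≥0∞} (hψ : Measurable ψ) (h1 : ∫⁻ y, ψ y ≤ 1)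
    (μ : Measure (Euc d)) [SFinite μ] (s₁ : Euc d) {D : ℝ≥0∞}
    (hD : ∀ W : Submodule ℝ (Euc d), Module.finrank ℝ W ≤ m →
      ∫⁻ s, (ENNReal.ofReal ‖Wᗮ.starProjection (s - s₁)‖)⁻¹ ^ k ∂μ ≤ D) :
    ∀ (n : ℕ) (W : Submodule ℝ (Euc d)) (_ : Module.finrank ℝ W + n ≤ m + 1)
      (g : Euc d × ℝ → ℝ≥0∞) (_ : Measurable g)
      (_ : ∀ e ∈ Wᗮ, ∀ x y, g (x + e, y + ⟪e, s₁⟫) = g (x, y)),
      ∫⁻ Z, (∏ i, g (Z i)) * den ψ μ Z ^ n ∂(Lam d k)
        ≤ (∫⁻ z, g z ∂((stdGaussian (Euc d)).prod volume)) ^ k * D ^ n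
  | 0, W, _, g, hg, _ => by
    simp only [pow_zero, mul_one]
    rw [lintegral_pi_prod _ (fun _ => g) (fun _ => hg)]
    simp
  | n + 1, W, hW, g, hg, hinv => by
    have hd := measurable_den (k := k) hψ μ
    simp only [pow_succ, ← mul_assoc]
    rw [swap_den hψ μ (by fun_prop)]
    set I := ∫⁻ z, g z ∂((stdGaussian (Euc d)).prod volume)
    calc _ ≤ ∫⁻ s, I ^ k * D ^ n * (ENNReal.ofReal ‖Wᗮ.starProjection (s - s₁)‖)⁻¹ ^ k ∂μ := by
          refine lintegral_mono fun s => ?_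
          have hW' : Module.finrank ℝ (W ⊔ Submodule.span ℝ {s - s₁} : Submodule ℝ (Euc d)) + n
              ≤ m + 1 := by
            have h2 := Submodule.finrank_add_le_finrank_add_finrank W (Submodule.span ℝ {s - s₁})
            have h3 := finrank_span_le_card (R := ℝ) ({s - s₁} : Set (Euc d))
            simp only [toFinset_singleton, Finset.card_singleton] at h3
            omega
          have := replica_aux hψ h1 μ s₁ hD n _ hW' (fun z => g z * ψ (z.2 - ⟪z.1, s⟫))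
            (by fun_prop) (fun e he x y => by
              have h4 : ⟪e, s - s₁⟫ = 0 := Submodule.inner_left_of_mem_orthogonal
                (Submodule.mem_sup_right (Submodule.mem_span_singleton_self _)) he
              rw [inner_sub_right, sub_eq_zero] at h4
              simp only
              rw [hinv e (Submodule.orthogonal_le le_sup_left he), inner_add_left, h4,
                add_sub_add_right_eq_sub])
          simp only [Finset.prod_mul_distrib] at this
          refine le_trans (le_of_eq (lintegral_congr fun Z => ?_)) (this.trans ?_)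
          · rw [Psi]; ring
          · have h5 := row_bound W s₁ s hg hinv hψ h1
            calc _ ≤ (I * (ENNReal.ofReal ‖Wᗮ.starProjection (s - s₁)‖)⁻¹) ^ k * D ^ n := by
                  gcongr
              _ = _ := by rw [mul_pow]; ring
      _ ≤ _ := by
          rw [lintegral_const_mul _ (by fun_prop)]
          exact mul_le_mul_right (hD W (by omega)) _

lemma replica {d k m : ℕ} {ψ : ℝ → ℝ≥0∞} (hψ : Measurable ψ) (h1 : ∫⁻ y, ψ y ≤ 1)
    (μ : Measure (Euc d)) [SFinite μ] {D : ℝ≥0∞}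
    (hD : ∀ᵐ s₁ ∂μ, ∀ W : Submodule ℝ (Euc d), Module.finrank ℝ W ≤ m →
      ∫⁻ s, (ENNReal.ofReal ‖Wᗮ.starProjection (s - s₁)‖)⁻¹ ^ k ∂μ ≤ D) :
    ∫⁻ Z, den ψ μ Z ^ (m + 2) ∂(Lam d k) ≤ D ^ (m + 1) * μ univ := by
  have hd := measurable_den (k := k) hψ μ
  simp only [pow_succ _ (m + 1)]
  rw [swap_den hψ μ (by fun_prop), ← lintegral_const]
  refine lintegral_mono_ae (hD.mono fun s hs => ?_)
  have := replica_aux hψ h1 μ s hs (m + 1) ⊥ (by simp) (fun z => ψ (z.2 - ⟪z.1, s⟫))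
    (by fun_prop) (fun e _ x y => by simp only [inner_add_left, add_sub_add_right_eq_sub])
  refine le_trans (le_of_eq (lintegral_congr fun Z => ?_)) (this.trans ?_)
  · rw [Psi]; ring
  · refine mul_le_of_le_one_left' (pow_le_one' ?_ _)
    rw [lintegral_prod _ (by fun_prop)]
    simp only [lintegral_sub_right_eq_self]
    simpa using h1

lemma young {g h t : ℝ≥0∞} (hg : g ≤ 1) (ht : t ≠ 0) (ht' : t ≠ ⊤) (p : ℕ) :
    g * h ≤ t * g + h ^ (p + 1) * (t ^ p)⁻¹ := by
  rcases le_total h t with h1 | h1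
  · refine le_trans ?_ le_self_add
    rw [mul_comm]; gcongr
  · refine le_trans ?_ le_add_self
    refine (mul_le_of_le_one_left' hg).trans ?_
    have h2 : t ^ p * (t ^ p)⁻¹ = 1 :=
      ENNReal.mul_inv_cancel (pow_ne_zero _ ht) (ENNReal.pow_ne_top ht')
    calc h = h * (t ^ p * (t ^ p)⁻¹) := by rw [h2, mul_one]
      _ ≤ h * (h ^ p * (t ^ p)⁻¹) := by gcongr
      _ = _ := by ring

/-- box mollifier -/
noncomputable def box (n : ℕ) (y : ℝ) : ℝ≥0∞ :=
  (Icc (0 : ℝ) (1 / (n + 1))).indicator (fun _ => ENNReal.ofReal (n + 1)) y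

lemma measurable_box (n : ℕ) : Measurable (box n) :=
  measurable_const.indicator measurableSet_Icc

lemma lintegral_box (n : ℕ) : ∫⁻ y, box n y = 1 := by
  unfold box
  rw [lintegral_indicator_const measurableSet_Icc, Real.volume_Icc,
    ← ENNReal.ofReal_mul (by positivity), sub_zero, mul_one_div_cancel (by positivity),
    ENNReal.ofReal_one]

lemma lsc_box {d k : ℕ} {g : Zs d k → ℝ≥0∞} (hg : LowerSemicontinuous g) (s : Euc d)
    (X : Fin k → Euc d) :
    g (emb s X) ≤ liminf (fun n => ∫⁻ y : Fin k → ℝ,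
      g (fun i => (X i, y i)) * Psi (box n) s (fun i => (X i, y i))) atTop := by
  refine le_of_forall_lt_imp_le_of_dense fun c hc => ?_
  obtain ⟨η, hη, hb⟩ := Metric.eventually_nhds_iff.1 (hg (emb s X) c hc)
  obtain ⟨n₀, hn₀⟩ := exists_nat_one_div_lt hη
  refine le_liminf_of_le (by isBoundedDefault) (eventually_atTop.2 ⟨n₀, fun n hn => ?_⟩)
  have hn' : (1 : ℝ) / (n + 1) < η := (Nat.one_div_le_one_div hn).trans_lt hn₀
  have hbx := measurable_box n
  have h1 : ∫⁻ y : Fin k → ℝ, ∏ i, box n (y i - ⟪X i, s⟫) = 1 := by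
    rw [volume_pi, lintegral_pi_prod volume (fun i y => box n (y - ⟪X i, s⟫))
      (fun i => by fun_prop)]
    simp only [lintegral_sub_right_eq_self, lintegral_box, Finset.prod_const_one]
  calc c = ∫⁻ y : Fin k → ℝ, c * ∏ i, box n (y i - ⟪X i, s⟫) := by
        rw [lintegral_const_mul _ (by fun_prop), h1, mul_one]
    _ ≤ _ := by
        refine lintegral_mono fun y => ?_
        simp only [Psi]
        by_cases hy : ∀ i, y i - ⟪X i, s⟫ ∈ Icc (0 : ℝ) (1 / (n + 1))
        · refine mul_le_mul_left (hb ?_).le _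
          rw [dist_pi_lt_iff hη]
          intro i
          have := hy i
          simp only [emb, Prod.dist_eq, dist_self, Real.dist_eq]
          rw [abs_of_nonneg this.1]
          exact max_lt hη (this.2.trans_lt hn')
        · push Not at hy
          obtain ⟨i, hi⟩ := hy
          rw [Finset.prod_eq_zero (Finset.mem_univ i) (indicator_of_notMem hi _)]
          simp

lemma test_lsc {d k p : ℕ} (μ : Measure (Euc d)) [SFinite μ] {B t : ℝ≥0∞} (ht : t ≠ 0)
    (ht' : t ≠ ⊤) (hB : ∀ n, ∫⁻ Z, den (box n) μ Z ^ (p + 1) ∂(Lam d k) ≤ B)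
    {g : Zs d k → ℝ≥0∞} (hg : LowerSemicontinuous g) (hg1 : ∀ Z, g Z ≤ 1) :
    ∫⁻ s, ∫⁻ X, g (emb s X) ∂(Gam d k) ∂μ ≤ t * ∫⁻ Z, g Z ∂(Lam d k) + B * (t ^ p)⁻¹ := by
  have hgm := hg.measurable
  have := sigmaFinite_Lam d k
  have hP := fun n => measurable_Psi (d := d) (k := k) (measurable_box n)
  have hm : ∀ n, Measurable fun q : Euc d × Zs d k => g q.2 * Psi (box n) q.1 q.2 :=
    fun n => (hgm.comp measurable_snd).mul (hP n)
  calc _ ≤ ∫⁻ s, liminf (fun n => ∫⁻ Z, g Z * Psi (box n) s Z ∂(Lam d k)) atTop ∂μ := by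
        refine lintegral_mono fun s => ?_
        have hm2 : ∀ n, Measurable fun Z : Zs d k => g Z * Psi (box n) s Z :=
          fun n => (hm n).comp measurable_prodMk_left
        simp only [fun n => lintegral_Lam (hm2 n)]
        refine le_trans (lintegral_mono fun X => lsc_box hg s X) (lintegral_liminf_le fun n => ?_)
        refine Measurable.lintegral_prod_right' (f := fun q : (Fin k → Euc d) × (Fin k → ℝ) =>
          g (fun i => (q.1 i, q.2 i)) * Psi (box n) s (fun i => (q.1 i, q.2 i))) ?_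
        exact (hm2 n).comp (by fun_prop)
    _ ≤ liminf (fun n => ∫⁻ s, ∫⁻ Z, g Z * Psi (box n) s Z ∂(Lam d k) ∂μ) atTop :=
        lintegral_liminf_le fun n => (hm n).lintegral_prod_right'
    _ ≤ _ := by
        refine liminf_le_of_frequently_le' (Frequently.of_forall fun n => ?_)
        have hd := measurable_den (k := k) (measurable_box n) μ
        rw [← swap_den (measurable_box n) μ hgm]
        refine (lintegral_mono fun Z => young (hg1 Z) ht ht' p).trans ?_
        rw [lintegral_add_left (by fun_prop), lintegral_const_mul _ hgm,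
          lintegral_mul_const _ (by fun_prop)]
        gcongr
        exact hB n

lemma test_fun {d k p : ℕ} (μ : Measure (Euc d)) [SFinite μ] {B t : ℝ≥0∞} (ht : t ≠ 0)
    (ht' : t ≠ ⊤) (hB : ∀ n, ∫⁻ Z, den (box n) μ Z ^ (p + 1) ∂(Lam d k) ≤ B)
    {f : Zs d k → ℝ≥0∞} (hf : Measurable f) (hf1 : ∀ Z, f Z ≤ 1) :
    ∫⁻ s, ∫⁻ X, f (emb s X) ∂(Gam d k) ∂μ ≤ t * ∫⁻ Z, f Z ∂(Lam d k) + B * (t ^ p)⁻¹ := by
  refine ENNReal.le_of_forall_pos_le_add fun ε hε _ => ?_
  have hε' : (ε : ℝ≥0∞) / t ≠ 0 := (ENNReal.div_pos (by simpa using hε.ne') ht').ne'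
  have := weaklyRegular_Lam d k
  obtain ⟨g, h1, h2, h3⟩ := exists_le_lowerSemicontinuous_lintegral_ge (Lam d k) f hf hε'
  have h4 := test_lsc μ ht ht' hB (g := fun Z => g Z ⊓ 1) (h2.inf lowerSemicontinuous_const)
    (fun Z => inf_le_right)
  calc _ ≤ ∫⁻ s, ∫⁻ X, g (emb s X) ⊓ 1 ∂(Gam d k) ∂μ :=
        lintegral_mono fun s => lintegral_mono fun X => le_inf (h1 _) (hf1 _)
    _ ≤ t * (∫⁻ Z, f Z ∂(Lam d k) + ε / t) + B * (t ^ p)⁻¹ := by
        refine h4.trans ?_
        gcongr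
        exact (lintegral_mono fun Z => inf_le_left).trans h3
    _ = _ := by rw [mul_add, ENNReal.mul_div_cancel ht ht']; ring

end Vale.Agent.P309
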