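import Vale.Agent.P309.Om

namespace Vale.Agent.P309
open MeasureTheory ProbabilityTheory Real Set Metric
open scoped ENNReal RealInnerProductSpace

/-- Frostman type bound -/
def Fro {d : ℕ} (τ : Measure (Euc d)) (Q : ℝ≥0∞) (α : ℕ) : Prop :=
  ∀ u ρ, 0 < ρ → τ (closedBall u ρ) ≤ Q * ENNReal.ofReal (ρ ^ α)

lemma meas_and {X : Type*} [MeasurableSpace X] (f g : X → ℝ) (hf : Measurable f)
    (hg : Measurable g) (a b : ℝ) : MeasurableSet {s | f s ≤ a ∧ g s ≤ b} :=
  (measurableSet_le hf measurable_const).inter (measurableSet_le hg measurable_const)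

lemma tube_ratio {d m m' : ℕ} (hd : 0 < d) (hm : m' ≤ m) (hm' : m' ≤ d) {R ρ : ℝ} (hρ : 0 < ρ)
    (hR : ρ ≤ R) :
    exp (2 * d) * sqrt (π / d) ^ d * ((2 * R) ^ m' * (2 * ρ) ^ (d - m'))
      ≤ exp (3 * d) * (R / ρ) ^ m * (2 * ρ / sqrt d) ^ d := by
  have hd' : (0 : ℝ) < d := by exact_mod_cast hd
  have hs : 0 < sqrt (d : ℝ) := sqrt_pos.2 hd'
  have h1 : (2 * R) ^ m' * (2 * ρ) ^ (d - m') = (R / ρ) ^ m' * (2 * ρ) ^ d := by
    obtain ⟨j, rfl⟩ := Nat.exists_eq_add_of_le hm'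
    rw [Nat.add_sub_cancel_left, pow_add, ← mul_assoc, ← mul_pow]
    congr 2; field_simp
  have h2 : (R / ρ) ^ m' ≤ (R / ρ) ^ m := pow_le_pow_right₀ ((one_le_div hρ).2 hR) hm
  have h3 : sqrt (π / d) ≤ exp 1 / sqrt d := by
    rw [sqrt_div pi_pos.le]
    gcongr
    refine sqrt_le_iff.2 ⟨(exp_pos _).le, ?_⟩
    nlinarith [pi_lt_four, Real.exp_one_gt_d9]
  have h4 : exp (3 * d) = exp (2 * d) * exp 1 ^ d := by
    rw [← Real.exp_nat_mul, ← Real.exp_add]; congr 1; ring
  have hRρ : 0 ≤ R / ρ := div_nonneg (hρ.le.trans hR) hρ.le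
  rw [h1, h4]
  calc _ ≤ exp (2 * d) * (exp 1 / sqrt d) ^ d * ((R / ρ) ^ m * (2 * ρ) ^ d) := by gcongr
    _ = _ := by rw [div_pow (exp 1), div_pow (2 * ρ)]; ring

lemma tube_meas {d α m : ℕ} (hd : 0 < d) {τ : Measure (Euc d)} [SFinite τ] {Q : ℝ≥0∞}
    (hτ : Fro τ Q α) (W : Submodule ℝ (Euc d)) (hW : Module.finrank ℝ W ≤ m) (s₁ : Euc d)
    {R ρ : ℝ} (hρ : 0 < ρ) (hR : ρ ≤ R) :
    τ {s | ‖s - s₁‖ ≤ R ∧ ‖Wᗮ.starProjection (s - s₁)‖ ≤ ρ}
      ≤ Q * ENNReal.ofReal (ρ ^ α * (exp (3 * d) * (R / ρ) ^ m)) := by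
  have hd' : (0 : ℝ) < d := by exact_mod_cast hd
  have hs : 0 < sqrt (d : ℝ) := sqrt_pos.2 hd'
  set T := {s | ‖s - s₁‖ ≤ R ∧ ‖Wᗮ.starProjection (s - s₁)‖ ≤ ρ} with hT
  have hTm : MeasurableSet T :=
    meas_and _ _ (by fun_prop) (by fun_prop) _ _
  set T' := {x : Euc d | ‖W.starProjection (x - s₁)‖ ≤ 2 * R ∧
    ‖Wᗮ.starProjection (x - s₁)‖ ≤ 2 * ρ} with hT'
  have hT'm : MeasurableSet T' :=
    meas_and _ _ (by fun_prop) (by fun_prop) _ _
  set A : Set (Euc d × Euc d) := {p | p.1 ∈ T ∧ dist p.1 p.2 ≤ ρ} with hA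
  have hAm : MeasurableSet A :=
    (hTm.preimage measurable_fst).inter
      (measurableSet_le (f := fun p : Euc d × Euc d => dist p.1 p.2) (by fun_prop) measurable_const)
  set v := ENNReal.ofReal ((2 * ρ / sqrt d) ^ d) with hv
  have h1 : v * τ T ≤ (τ.prod volume) A := by
    rw [Measure.prod_apply hAm, ← lintegral_indicator_const hTm]
    refine lintegral_mono fun s => ?_
    by_cases hs : s ∈ T
    · rw [indicator_of_mem hs]
      refine (vol_ball_ge hd s hρ).trans (measure_mono fun u hu => ⟨hs, ?_⟩)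
      simpa [dist_comm] using hu
    · rw [indicator_of_notMem hs]; exact zero_le
  have h2 : (τ.prod volume) A ≤ Q * ENNReal.ofReal (ρ ^ α) * volume T' := by
    rw [Measure.prod_apply_symm hAm, ← lintegral_indicator_const hT'm]
    refine lintegral_mono fun u => ?_
    by_cases hu : u ∈ T'
    · rw [indicator_of_mem hu]
      exact le_trans (measure_mono fun s hs => hs.2) (hτ u ρ hρ)
    · rw [indicator_of_notMem hu]
      refine le_of_eq ?_
      rw [← measure_empty (μ := τ)]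
      congr 1
      refine eq_empty_of_forall_notMem fun s hs => hu ?_
      obtain ⟨⟨ha, hb⟩, hc⟩ := hs
      simp only [dist_eq_norm] at hc ha hb
      have he : u - s₁ = (s - s₁) - (s - u) := by abel
      constructor
      · refine (W.norm_starProjection_apply_le _).trans ?_
        rw [he]
        refine (norm_sub_le _ _).trans ?_
        linarith
      · rw [he, map_sub]
        refine (norm_sub_le _ _).trans ?_
        have := Wᗮ.norm_starProjection_apply_le (s - u)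
        linarith
  have h3 : volume T' ≤ ENNReal.ofReal (exp (3 * d) * (R / ρ) ^ m) * v := by
    have := vol_tube W s₁ (a := 2 * R) (b := 2 * ρ) (D := d) (by linarith) (by linarith) hd'
    refine this.trans ?_
    have hRρ : 0 ≤ R / ρ := div_nonneg (hρ.le.trans hR) hρ.le
    rw [hv, ← ENNReal.ofReal_mul (by positivity)]
    refine ENNReal.ofReal_le_ofReal ?_
    have hf : Module.finrank ℝ (Euc d) = d := by simp
    rw [hf]
    exact tube_ratio hd hW (W.finrank_le.trans hf.le) hρ hR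
  have hv0 : v ≠ 0 := by rw [hv]; exact (ENNReal.ofReal_pos.2 (by positivity)).ne'
  have hvt : v ≠ ⊤ := ENNReal.ofReal_ne_top
  rw [← ENNReal.mul_le_mul_iff_right hv0 hvt, ENNReal.ofReal_mul (by positivity)]
  refine h1.trans (h2.trans ?_)
  calc _ ≤ Q * ENNReal.ofReal (ρ ^ α) * (ENNReal.ofReal (exp (3 * d) * (R / ρ) ^ m) * v) := by
        gcongr
    _ = _ := by ring

lemma inv_pow_le_tsum {δ R : ℝ} (hδ : 0 ≤ δ) (hR : 0 < R) (h : δ ≤ R) (n : ℕ) :
    (ENNReal.ofReal δ)⁻¹ ^ n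
      ≤ ∑' i : ℕ, if δ ≤ R / 2 ^ i then ENNReal.ofReal ((2 ^ (i + 1) / R) ^ n) else 0 := by
  rcases hδ.eq_or_lt with h0 | h0
  · subst h0
    refine le_top.trans (le_of_eq_of_le
      (ENNReal.tsum_const_eq_top_of_ne_zero (α := ℕ) (c := ENNReal.ofReal ((1 / R) ^ n))
        (ENNReal.ofReal_pos.2 (by positivity)).ne').symm (ENNReal.tsum_le_tsum fun i => ?_))
    rw [if_pos (by positivity)]
    refine ENNReal.ofReal_le_ofReal ?_
    gcongr
    exact one_le_pow₀ (by norm_num)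
  · obtain ⟨i, h1, h2⟩ := exists_nat_pow_near_of_lt_one (x := δ / R) (y := 1 / 2)
      (div_pos h0 hR) ((div_le_one hR).2 h) (by norm_num) (by norm_num)
    refine le_trans ?_ (ENNReal.le_tsum i)
    rw [if_pos, ← ENNReal.ofReal_inv_of_pos h0, ← ENNReal.ofReal_pow (by positivity)]
    · refine ENNReal.ofReal_le_ofReal ?_
      gcongr
      rw [one_div_pow, div_lt_div_iff₀ (by positivity) hR] at h1
      rw [inv_eq_one_div, div_le_div_iff₀ h0 hR]
      linarith
    · rw [one_div_pow, div_le_div_iff₀ hR (by positivity)] at h2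
      rw [le_div_iff₀ (by positivity)]
      linarith

lemma sing_term {α m n i : ℕ} (h : n + m + 1 ≤ α) {R : ℝ} (hR : 0 < R) :
    (2 ^ (i + 1) / R) ^ n * ((R / 2 ^ i) ^ α * (R / (R / 2 ^ i)) ^ m)
      ≤ 2 ^ n * R ^ α / R ^ n * (1 / 2) ^ i := by
  obtain ⟨j, rfl⟩ := Nat.exists_eq_add_of_le h
  have h1 : R / (R / 2 ^ i) = 2 ^ i := by field_simp
  have h2 : (1 : ℝ) ≤ (2 ^ i) ^ j := one_le_pow₀ (one_le_pow₀ (by norm_num))
  rw [h1]
  set x : ℝ := 2 ^ i with hx
  have hx0 : 0 < x := by positivity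
  have h3 : (2 : ℝ) ^ (i + 1) = 2 * x := by rw [hx, pow_succ]; ring
  rw [h3, one_div_pow, ← hx]
  have h4 : (2 * x / R) ^ n * ((R / x) ^ (n + m + 1 + j) * x ^ m)
      = 2 ^ n * R ^ (n + m + 1 + j) / R ^ n * (1 / x) / x ^ j := by
    rw [div_pow, div_pow, mul_pow]
    simp only [pow_add x, pow_one]
    field_simp
  rw [h4]
  exact div_le_self (by positivity) h2

lemma sing_int {d α m n : ℕ} (hd : 0 < d) {τ : Measure (Euc d)} [SFinite τ] {Q : ℝ≥0∞}
    (hτ : Fro τ Q α) (W : Submodule ℝ (Euc d)) (hW : Module.finrank ℝ W ≤ m)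
    (h : n + m + 1 ≤ α) {z s₁ : Euc d} {r : ℝ} (hr : 0 < r) (hs₁ : s₁ ∈ closedBall z r) :
    ∫⁻ s in closedBall z r, (ENNReal.ofReal ‖Wᗮ.starProjection (s - s₁)‖)⁻¹ ^ n ∂τ
      ≤ Q * ENNReal.ofReal (2 * exp (3 * d) * (2 * r) ^ α / r ^ n) := by
  set R := 2 * r with hR
  have hR0 : 0 < R := by positivity
  let T : ℕ → Set (Euc d) := fun i =>
    {s | ‖s - s₁‖ ≤ R ∧ ‖Wᗮ.starProjection (s - s₁)‖ ≤ R / 2 ^ i}
  have hTm : ∀ i, MeasurableSet (T i) := fun i =>
    meas_and _ _ (by fun_prop) (by fun_prop) _ _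
  calc _ ≤ ∫⁻ s, ∑' i, (T i).indicator (fun _ => ENNReal.ofReal ((2 ^ (i + 1) / R) ^ n)) s ∂τ := by
        rw [← lintegral_indicator measurableSet_closedBall]
        refine lintegral_mono fun s => ?_
        by_cases hs : s ∈ closedBall z r
        · rw [indicator_of_mem hs]
          have h1 : ‖s - s₁‖ ≤ R := by
            rw [← dist_eq_norm]
            have := dist_triangle_right s s₁ z
            rw [mem_closedBall] at hs hs₁
            linarith
          refine (inv_pow_le_tsum (norm_nonneg _) hR0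
            ((Wᗮ.norm_starProjection_apply_le _).trans h1) n).trans
            (ENNReal.tsum_le_tsum fun i => ?_)
          split_ifs with h2
          · rw [indicator_of_mem (show s ∈ T i from ⟨h1, h2⟩)]
          · exact zero_le
        · rw [indicator_of_notMem hs]; exact zero_le
    _ = ∑' i, ENNReal.ofReal ((2 ^ (i + 1) / R) ^ n) * τ (T i) := by
        rw [lintegral_tsum fun i => (measurable_const.indicator (hTm i)).aemeasurable]
        simp_rw [lintegral_indicator_const (hTm _)]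
    _ ≤ ∑' i : ℕ, Q * ENNReal.ofReal (exp (3 * d) * (2 ^ n * R ^ α / R ^ n))
          * ENNReal.ofReal ((1 / 2) ^ i) := by
        refine ENNReal.tsum_le_tsum fun i => ?_
        have h1 := tube_meas hd hτ W hW s₁ (R := R) (ρ := R / 2 ^ i) (by positivity)
          (div_le_self hR0.le (one_le_pow₀ (by norm_num)))
        refine (mul_le_mul_right h1 _).trans ?_
        rw [mul_left_comm, mul_assoc, ← ENNReal.ofReal_mul (by positivity),
          ← ENNReal.ofReal_mul (by positivity)]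
        refine mul_le_mul_right (ENNReal.ofReal_le_ofReal ?_) _
        have := sing_term (i := i) h hR0
        calc _ = exp (3 * d) * ((2 ^ (i + 1) / R) ^ n
              * ((R / 2 ^ i) ^ α * (R / (R / 2 ^ i)) ^ m)) := by ring
          _ ≤ exp (3 * d) * (2 ^ n * R ^ α / R ^ n * (1 / 2) ^ i) := by gcongr
          _ = _ := by ring
    _ = _ := by
        rw [ENNReal.tsum_mul_left, ← ENNReal.ofReal_tsum_of_nonneg (fun i => by positivity)
          summable_geometric_two, tsum_geometric_two, mul_assoc,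
          ← ENNReal.ofReal_mul (by positivity)]
        congr 2
        rw [hR, mul_pow 2 r n]
        field_simp

end Vale.Agent.P309
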