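import Mathlib

namespace Vale.Agent.P309
open MeasureTheory Real Set Metric
open scoped ENNReal RealInnerProductSpace

lemma lintegral_pi_succ {A : Type*} [MeasurableSpace A] (μ : Measure A) [SigmaFinite μ] {n : ℕ}
    (F : (Fin (n + 1) → A) → ℝ≥0∞) (hF : Measurable F) :
    ∫⁻ X, F X ∂(Measure.pi fun _ => μ)
      = ∫⁻ x, ∫⁻ X, F (Fin.cons x X) ∂(Measure.pi fun _ : Fin n => μ) ∂μ := by
  have h := (measurePreserving_piFinSuccAbove (fun _ : Fin (n + 1) => μ) 0).symm
  have hm : Measurable fun a => F ((MeasurableEquiv.piFinSuccAbove (fun _ => A) 0).symm a) :=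
    hF.comp h.measurable
  rw [← h.lintegral_comp hF, lintegral_prod _ hm.aemeasurable]
  simp_rw [MeasurableEquiv.piFinSuccAbove_symm_apply, Fin.insertNthEquiv, Equiv.coe_fn_mk,
    Fin.insertNth_zero, cast_eq]

lemma measurable_cons {A : Type*} [MeasurableSpace A] {n : ℕ} :
    Measurable (fun p : A × (Fin n → A) => (Fin.cons p.1 p.2 : Fin (n + 1) → A)) := by
  refine measurable_pi_iff.2 fun i => ?_
  refine Fin.cases ?_ (fun j => ?_) i
  · simpa using measurable_fst
  · simp only [Fin.cons_succ]; fun_prop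

lemma lintegral_pi_prod {A : Type*} [MeasurableSpace A] (μ : Measure A) [SigmaFinite μ] :
    ∀ {n : ℕ} (f : Fin n → A → ℝ≥0∞) (_ : ∀ i, Measurable (f i)),
    ∫⁻ X, ∏ i, f i (X i) ∂(Measure.pi fun _ => μ) = ∏ i, ∫⁻ x, f i x ∂μ
  | 0, f, _ => by simp
  | n + 1, f, hf => by
    have h1 : Measurable fun X : Fin (n + 1) → A => ∏ i, f i (X i) :=
      Finset.measurable_prod _ fun i _ => (hf i).comp (measurable_pi_apply i)
    rw [lintegral_pi_succ μ _ h1]
    simp_rw [Fin.prod_univ_succ, Fin.cons_zero, Fin.cons_succ]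
    have h2 : Measurable fun X : Fin n → A => ∏ i, f i.succ (X i) :=
      Finset.measurable_prod _ fun i _ => (hf i.succ).comp (measurable_pi_apply i)
    simp_rw [lintegral_const_mul _ h2, lintegral_pi_prod μ (fun i => f i.succ) (fun i => hf _)]
    rw [lintegral_mul_const _ (hf 0)]

lemma lintegral_gauss {b : ℝ} (hb : 0 < b) :
    ∫⁻ x : ℝ, ENNReal.ofReal (exp (-b * x ^ 2)) = ENNReal.ofReal (sqrt (π / b)) := by
  rw [← integral_gaussian, ofReal_integral_eq_lintegral_ofReal (integrable_exp_neg_mul_sq hb)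
    (Filter.Eventually.of_forall fun x => (exp_pos _).le)]

section Ell
variable {F : Type*} [NormedAddCommGroup F] [InnerProductSpace ℝ F] [FiniteDimensional ℝ F]
  [MeasurableSpace F] [BorelSpace F]

/-- volume of an ellipsoid -/
lemma vol_ell {n : ℕ} (b : OrthonormalBasis (Fin n) ℝ F) (c : Fin n → ℝ) (hc : ∀ i, 0 < c i)
    (D : ℝ) : volume {x : F | ∑ i, c i * ⟪b i, x⟫ ^ 2 ≤ D}
      ≤ ENNReal.ofReal (exp D * ∏ i, sqrt (π / c i)) := by
  have hm := (PiLp.volume_preserving_ofLp (Fin n)).comp b.measurePreserving_repr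
  have hS : MeasurableSet {y : Fin n → ℝ | ∑ i, c i * y i ^ 2 ≤ D} :=
    measurableSet_le (by fun_prop) measurable_const
  have h1 : {x : F | ∑ i, c i * ⟪b i, x⟫ ^ 2 ≤ D}
      = (WithLp.ofLp ∘ b.repr) ⁻¹' {y : Fin n → ℝ | ∑ i, c i * y i ^ 2 ≤ D} := by
    ext x; simp [b.repr_apply_apply]
  rw [h1, hm.measure_preimage hS.nullMeasurableSet, ← lintegral_indicator_one hS]
  calc ∫⁻ y, indicator {y : Fin n → ℝ | ∑ i, c i * y i ^ 2 ≤ D} 1 y
      ≤ ∫⁻ y : Fin n → ℝ, ENNReal.ofReal (exp D) * ∏ i, ENNReal.ofReal (exp (-c i * y i ^ 2)) := by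
        refine lintegral_mono fun y => ?_
        by_cases hy : y ∈ {y : Fin n → ℝ | ∑ i, c i * y i ^ 2 ≤ D}
        · rw [indicator_of_mem hy, ← ENNReal.ofReal_prod_of_nonneg (fun i _ => (exp_pos _).le),
            ← ENNReal.ofReal_mul (exp_pos _).le, ← Real.exp_sum, ← Real.exp_add]
          refine ENNReal.one_le_ofReal.2 (Real.one_le_exp ?_)
          simp only [neg_mul, Finset.sum_neg_distrib]
          have : ∑ i, c i * y i ^ 2 ≤ D := hy
          linarith
        · rw [indicator_of_notMem hy]; exact zero_le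
    _ = ENNReal.ofReal (exp D * ∏ i, sqrt (π / c i)) := by
        rw [lintegral_const_mul _ (by fun_prop), volume_pi,
          lintegral_pi_prod volume (fun i y => ENNReal.ofReal (exp (-c i * y ^ 2)))
            (fun i => by fun_prop)]
        simp_rw [lintegral_gauss (hc _)]
        rw [← ENNReal.ofReal_prod_of_nonneg (fun i _ => sqrt_nonneg _),
          ← ENNReal.ofReal_mul (exp_pos _).le]

/-- volume of a ball, upper bound -/
lemma vol_ball_le {a D : ℝ} (ha : 0 < a) (hD : 0 < D) :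
    volume (closedBall (0 : F) a)
      ≤ ENNReal.ofReal (exp D * (sqrt (π / D) * a) ^ Module.finrank ℝ F) := by
  have h := vol_ell (stdOrthonormalBasis ℝ F) (fun _ => D / a ^ 2) (fun _ => by positivity) D
  refine le_trans (measure_mono fun x hx => ?_) (h.trans (le_of_eq ?_))
  · simp only [mem_setOf_eq, ← Finset.mul_sum, OrthonormalBasis.sum_sq_inner_right]
    have hx' : ‖x‖ ≤ a := by simpa using hx
    have : ‖x‖ ^ 2 ≤ a ^ 2 := by gcongr
    rw [div_mul_eq_mul_div, div_le_iff₀ (by positivity)]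
    gcongr
  · congr 2
    rw [Finset.prod_const, Finset.card_univ, Fintype.card_fin]
    congr 1
    rw [div_div_eq_mul_div, mul_div_right_comm, sqrt_mul (by positivity), sqrt_sq ha.le]

/-- volume of a tube -/
lemma vol_tube (W : Submodule ℝ F) (z : F) {a b D : ℝ} (ha : 0 < a) (hb : 0 < b) (hD : 0 < D) :
    volume {x : F | ‖W.starProjection (x - z)‖ ≤ a ∧ ‖Wᗮ.starProjection (x - z)‖ ≤ b}
      ≤ ENNReal.ofReal (exp (2 * D) * sqrt (π / D) ^ Module.finrank ℝ F *
        (a ^ Module.finrank ℝ W * b ^ (Module.finrank ℝ F - Module.finrank ℝ W))) := by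
  have hm := (WithLp.volume_preserving_ofLp W Wᗮ).comp W.orthogonalDecomposition.measurePreserving
  have hm2 := hm.comp (measurePreserving_sub_right (volume : Measure F) z)
  have hS : MeasurableSet (closedBall (0 : W) a ×ˢ closedBall (0 : Wᗮ) b) :=
    measurableSet_closedBall.prod measurableSet_closedBall
  have h1 : {x : F | ‖W.starProjection (x - z)‖ ≤ a ∧ ‖Wᗮ.starProjection (x - z)‖ ≤ b}
      = ((WithLp.ofLp ∘ W.orthogonalDecomposition) ∘ fun x => x - z) ⁻¹'
        (closedBall (0 : W) a ×ˢ closedBall (0 : Wᗮ) b) := by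
    ext x
    simp only [mem_setOf_eq, mem_preimage, Function.comp, mem_prod, mem_closedBall, dist_zero_right,
      Submodule.orthogonalDecomposition_apply]
    rfl
  rw [h1, hm2.measure_preimage hS.nullMeasurableSet, Measure.volume_eq_prod, Measure.prod_prod]
  have hd := W.finrank_add_finrank_orthogonal
  refine (mul_le_mul' (vol_ball_le ha hD) (vol_ball_le hb hD)).trans (le_of_eq ?_)
  rw [← ENNReal.ofReal_mul (by positivity), ← hd, Nat.add_sub_cancel_left]
  congr 1
  rw [two_mul, Real.exp_add, mul_pow, mul_pow, pow_add]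
  ring

end Ell

/-- volume of a ball, lower bound -/
lemma vol_ball_ge {d : ℕ} (hd : 0 < d) (z : EuclideanSpace ℝ (Fin d)) {a : ℝ} (ha : 0 < a) :
    ENNReal.ofReal ((2 * a / sqrt d) ^ d) ≤ volume (closedBall z a) := by
  have hs : 0 < sqrt (d : ℝ) := sqrt_pos.2 (by exact_mod_cast hd)
  rw [Measure.addHaar_closedBall_center]
  have hm := PiLp.volume_preserving_toLp (Fin d)
  rw [← hm.measure_preimage measurableSet_closedBall.nullMeasurableSet]
  have h1 : volume (Set.pi univ fun _ : Fin d => Icc (-(a / sqrt d)) (a / sqrt d))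
      = ENNReal.ofReal ((2 * a / sqrt d) ^ d) := by
    rw [volume_pi_pi]
    simp only [Real.volume_Icc, Finset.prod_const, Finset.card_univ, Fintype.card_fin]
    rw [← ENNReal.ofReal_pow (by have := div_pos ha hs; linarith)]
    congr 2; ring
  rw [← h1]
  refine measure_mono fun y hy => ?_
  simp only [mem_preimage, mem_closedBall, dist_zero_right]
  rw [EuclideanSpace.norm_eq]
  refine sqrt_le_iff.2 ⟨ha.le, ?_⟩
  have : ∀ i, ‖y i‖ ^ 2 ≤ (a / sqrt d) ^ 2 := fun i => by
    have := hy i (mem_univ i)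
    rw [Real.norm_eq_abs, sq_abs]
    exact sq_le_sq' this.1 this.2
  calc ∑ i, ‖y i‖ ^ 2 ≤ ∑ _i : Fin d, (a / sqrt d) ^ 2 := Finset.sum_le_sum fun i _ => this i
    _ = a ^ 2 := by
      rw [Finset.sum_const, Finset.card_univ, Fintype.card_fin, nsmul_eq_mul, div_pow,
        sq_sqrt (Nat.cast_nonneg d)]
      have : (d : ℝ) ≠ 0 := by exact_mod_cast hd.ne'
      field_simp

end Vale.Agent.P309
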